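import Mathlib

/-! The Bernoulli space used for the counterexample and its mixing property. -/

open scoped ENNReal symmDiff
open MeasureTheory ProbabilityTheory

namespace Vale.Agent.P131

/-- The index set: one copy of the integers for cuts and one for the passenger weights. -/
abbrev Idx : Type := ℤ ⊕ ℤ

/-- The sample space. -/
abbrev Om : Type := Idx → ℕ

/-- One half as a point of the unit interval. -/
noncomputable def half : unitInterval := ⟨1 / 2, by norm_num, by norm_num⟩

lemma half_ne_zero : half ≠ 0 := by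
  intro h
  have := congrArg Subtype.val h
  simp [half] at this

/-- The geometric law with ratio one half. -/
noncomputable def nu : Measure ℕ := geometricMeasure half

instance : IsProbabilityMeasure nu := by unfold nu; infer_instance

/-- The product measure. -/
noncomputable def mu : Measure Om := Measure.infinitePi fun _ : Idx => nu

instance : IsProbabilityMeasure mu := by unfold mu; infer_instance

lemma nu_Ici (j : ℕ) : nu.real (Set.Ici j) = (1 / 2) ^ j := by
  induction j with
  | zero =>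
    have : Set.Ici (0 : ℕ) = Set.univ := by ext; simp
    rw [this]; simp
  | succ j ih =>
    have h1 : Set.Ici j = {j} ∪ Set.Ici (j + 1) := by
      ext n; simp only [Set.mem_Ici, Set.mem_union, Set.mem_singleton_iff]; omega
    have h2 : Disjoint ({j} : Set ℕ) (Set.Ici (j + 1)) := by simp
    rw [h1, measureReal_union h2 MeasurableSet.of_discrete] at ih
    have h3 : nu.real {j} = (1 / 2) ^ j * (1 / 2) := by
      rw [nu, geometricMeasure_real_singleton half_ne_zero]
      norm_num [half]
    rw [pow_succ]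
    linarith

lemma nu_Iio (j : ℕ) : nu.real (Set.Iio j) = 1 - (1 / 2) ^ j := by
  rw [← Set.compl_Ici, probReal_compl_eq_one_sub MeasurableSet.of_discrete, nu_Ici]

lemma mp_comp {f : Idx → Idx} (hf : Function.Injective f) :
    MeasurePreserving (fun x : Om => x ∘ f) mu mu where
  measurable := by
    refine measurable_pi_iff.2 fun i => ?_
    exact measurable_pi_apply (f i)
  map_eq := Measure.map_infinitePi_infinitePi_of_inj (P := fun _ : Idx => nu) hf

lemma mu_pi (s : Finset Idx) (A : Set ℕ) :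
    mu.real {x | ∀ i ∈ s, x i ∈ A} = nu.real A ^ s.card := by
  have : {x : Om | ∀ i ∈ s, x i ∈ A} = Set.pi (s : Set Idx) fun _ => A := by
    ext x; simp [Set.mem_pi]
  rw [this, measureReal_def, mu, Measure.infinitePi_pi _ fun _ _ => MeasurableSet.of_discrete,
    Finset.prod_const, ENNReal.toReal_pow, measureReal_def]

lemma mu_ge (i : Idx) (j : ℕ) : mu.real {x | j ≤ x i} = (1 / 2) ^ j := by
  have := mu_pi {i} (Set.Ici j)
  simpa [nu_Ici] using this

lemma mu_ge_ge {i i' : Idx} (h : i ≠ i') (j : ℕ) :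
    mu.real {x | j ≤ x i ∧ j ≤ x i'} = (1 / 4) ^ j := by
  have := mu_pi {i, i'} (Set.Ici j)
  rw [Finset.card_pair h, nu_Ici] at this
  simp only [Finset.mem_insert, Finset.mem_singleton, Set.mem_Ici, forall_eq_or_imp,
    forall_eq] at this
  rw [this, ← pow_mul, mul_comm, pow_mul]
  norm_num

lemma one_sub_pow_le (j : ℕ) : (1 - (1 / 2 : ℝ) ^ j) ^ (3 ^ j) ≤ (2 / 3) ^ j := by
  set q : ℝ := (1 / 2) ^ j with hq
  have hq0 : 0 < q := by positivity
  have hq1 : q ≤ 1 := pow_le_one₀ (by norm_num) (by norm_num)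
  have h1 : 1 + ((3 ^ j : ℕ) : ℝ) * q ≤ (1 + q) ^ (3 ^ j) :=
    one_add_mul_le_pow (by linarith) _
  have h2 : (1 - q) ^ (3 ^ j) * (1 + q) ^ (3 ^ j) ≤ 1 := by
    rw [← mul_pow]
    exact pow_le_one₀ (by nlinarith) (by nlinarith)
  have h3 : 0 ≤ (1 - q) ^ (3 ^ j) := pow_nonneg (by linarith) _
  have h4 : ((3 ^ j : ℕ) : ℝ) * q * (2 / 3) ^ j = 1 := by
    rw [hq]; push_cast; rw [← mul_pow, ← mul_pow]; norm_num
  have h5 : (1 - q) ^ (3 ^ j) * (((3 ^ j : ℕ) : ℝ) * q) ≤ 1 := by nlinarith
  calc (1 - q) ^ (3 ^ j) = ((1 - q) ^ (3 ^ j) * (((3 ^ j : ℕ) : ℝ) * q)) * (2 / 3) ^ j := by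
        rw [mul_assoc, h4, mul_one]
    _ ≤ 1 * (2 / 3) ^ j := mul_le_mul_of_nonneg_right h5 (by positivity)
    _ = _ := one_mul _

lemma mu_all_lt (j : ℕ) (f : ℕ → Idx) (hf : Function.Injective f) :
    mu.real {x | ∀ i, i < 3 ^ j → x (f i) < j} ≤ (2 / 3) ^ j := by
  have := mu_pi ((Finset.range (3 ^ j)).map ⟨f, hf⟩) (Set.Iio j)
  rw [Finset.card_map, Finset.card_range, nu_Iio] at this
  simp only [Finset.mem_map, Finset.mem_range, Function.Embedding.coeFn_mk, Set.mem_Iio,
    forall_exists_index, and_imp, forall_apply_eq_imp_iff₂] at this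
  rw [this]
  exact one_sub_pow_le j

lemma exists_cylinder (E : Set Om) (hE : MeasurableSet E) (η : ℝ) (hη : 0 < η) :
    ∃ (I : Finset Idx) (S : Set (I → ℕ)), MeasurableSet S ∧
      mu.real (E \ cylinder I S) < η ∧ mu.real (cylinder I S \ E) < η := by
  have hd : mu.MeasureDense (measurableCylinders fun _ : Idx => ℕ) :=
    Measure.MeasureDense.of_generateFrom_isSetAlgebra_finite mu isSetAlgebra_measurableCylinders
      generateFrom_measurableCylinders.symm
  obtain ⟨t, ht, h⟩ := hd.approx E hE (measure_ne_top _ _) η hη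
  obtain ⟨I, S, hS, rfl⟩ := (mem_measurableCylinders t).1 ht
  have h' : mu.real (E ∆ cylinder I S) < η := ENNReal.toReal_lt_of_lt_ofReal h
  refine ⟨I, S, hS, lt_of_le_of_lt (measureReal_mono ?_) h',
    lt_of_le_of_lt (measureReal_mono ?_) h'⟩
  · intro x hx; exact Or.inl hx
  · intro x hx; exact Or.inr hx

lemma indep_cylinder (I J : Finset Idx) (f : Idx → Idx) (hd : ∀ j ∈ J, f j ∉ I)
    (S : Set (I → ℕ)) (S' : Set (J → ℕ)) (hS : MeasurableSet S) (hS' : MeasurableSet S') :
    mu (cylinder I S ∩ (fun x : Om => x ∘ f) ⁻¹' cylinder J S') =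
      mu (cylinder I S) * mu ((fun x : Om => x ∘ f) ⁻¹' cylinder J S') := by
  classical
  have hind : iIndepFun (fun (i : Idx) (x : Om) => x i) mu :=
    iIndepFun_infinitePi (P := fun _ : Idx => nu) (X := fun _ n => n) fun _ => measurable_id
  have hdisj : Disjoint I (J.image f) := by
    rw [Finset.disjoint_right]
    intro a ha
    obtain ⟨j, hj, rfl⟩ := Finset.mem_image.1 ha
    exact hd j hj
  have h1 := hind.indepFun_finset I (J.image f) hdisj fun i => measurable_pi_apply i
  let φ : (J.image f → ℕ) → (J → ℕ) := fun z j => z ⟨f j, Finset.mem_image_of_mem f j.2⟩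
  have hφ : Measurable φ := measurable_pi_iff.2 fun j => measurable_pi_apply _
  exact h1.measure_inter_preimage_eq_mul S (φ ⁻¹' S') hS (hφ hS')

/-- The index shift by `k`. -/
def sh (k : ℤ) : Idx → Idx := Sum.map (fun n => n - k) (fun n => n - k)

lemma sh_injective (k : ℤ) : Function.Injective (sh k) :=
  Function.Injective.sumMap sub_left_injective sub_left_injective

/-- The shift on the sample space. -/
def sig (x : Om) : Om := x ∘ sh 1

lemma sig_iterate (k : ℕ) : sig^[k] = fun x : Om => x ∘ sh k := by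
  induction k with
  | zero =>
    funext x i
    rcases i with n | n <;> simp [sh]
  | succ k ih =>
    funext x i
    rw [Function.iterate_succ_apply', ih]
    rcases i with n | n <;> simp [sh, sig] <;> congr 2 <;> ring

lemma mp_sig : MeasurePreserving sig mu mu := mp_comp (sh_injective 1)

/-- The position of an index. -/
def pos (i : Idx) : ℤ := Sum.elim id id i

lemma pos_sh (k : ℤ) (i : Idx) : pos (sh k i) = pos i - k := by
  rcases i with n | n <;> simp [sh, pos]

lemma exists_bound (I : Finset Idx) : ∃ M : ℕ, ∀ i ∈ I, (pos i).natAbs ≤ M :=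
  ⟨I.sup fun i => (pos i).natAbs, fun _ hi => Finset.le_sup (f := fun i => (pos i).natAbs) hi⟩

lemma real_pos {E : Set Om} (h : mu E ≠ 0) : 0 < mu.real E :=
  ENNReal.toReal_pos h (measure_ne_top _ _)

theorem mixing (A B : Set Om) (hA : MeasurableSet A) (hB : MeasurableSet B) (hA0 : mu A ≠ 0)
    (hB0 : mu B ≠ 0) (k0 : ℕ) : ∃ k : ℕ, k0 ≤ k ∧ mu (A ∩ sig^[k] ⁻¹' B) ≠ 0 := by
  have hα := real_pos hA0
  have hβ := real_pos hB0
  have hα1 : mu.real A ≤ 1 := measureReal_le_one
  have hβ1 : mu.real B ≤ 1 := measureReal_le_one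
  set η := mu.real A * mu.real B / 8 with hη
  have hη0 : 0 < η := by positivity
  obtain ⟨I, S, hS, hI1, hI2⟩ := exists_cylinder A hA η hη0
  obtain ⟨J, S', hS', hJ1, hJ2⟩ := exists_cylinder B hB η hη0
  obtain ⟨M, hM⟩ := exists_bound I
  obtain ⟨M', hM'⟩ := exists_bound J
  refine ⟨k0 + M + M' + 1, by omega, fun h0 => ?_⟩
  set k := k0 + M + M' + 1 with hk
  rw [sig_iterate] at h0
  have hmp := mp_comp (sh_injective k)
  set s : Om → Om := fun x => x ∘ sh k with hs
  have hind := indep_cylinder I J (sh k) (fun j hj hI => by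
    have h1 := hM _ hI
    have h2 := hM' _ hj
    rw [pos_sh] at h1
    omega) S S' hS hS'
  have mJ : MeasurableSet (cylinder J S' : Set Om) :=
    MeasurableSet.cylinder (α := fun _ : Idx => ℕ) J hS'
  rw [hmp.measure_preimage mJ.nullMeasurableSet] at hind
  have hind' : mu.real (cylinder I S ∩ s ⁻¹' cylinder J S') =
      mu.real (cylinder I S) * mu.real (cylinder J S') := by
    rw [measureReal_def, hind, ENNReal.toReal_mul]; rfl
  have hsub : cylinder I S ∩ s ⁻¹' cylinder J S' ⊆
      (A ∩ s ⁻¹' B) ∪ ((cylinder I S \ A) ∪ s ⁻¹' (cylinder J S' \ B)) := by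
    rintro x ⟨h1, h2⟩
    by_cases hxA : x ∈ A
    · by_cases hxB : s x ∈ B
      · exact Or.inl ⟨hxA, hxB⟩
      · exact Or.inr (Or.inr ⟨h2, hxB⟩)
    · exact Or.inr (Or.inl ⟨h1, hxA⟩)
  have e0 : mu.real (A ∩ s ⁻¹' B) = 0 := by rw [measureReal_def, h0]; rfl
  have e1 : mu.real (s ⁻¹' (cylinder J S' \ B)) = mu.real (cylinder J S' \ B) := by
    rw [measureReal_def, hmp.measure_preimage (mJ.diff hB).nullMeasurableSet]; rfl
  have e2 := (measureReal_mono (μ := mu) hsub).trans ((measureReal_union_le _ _).trans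
    (add_le_add le_rfl (measureReal_union_le _ _)))
  rw [hind', e0, e1] at e2
  have e3 : mu.real A - η ≤ mu.real (cylinder I S) := by
    have := le_measureReal_sdiff (μ := mu) (s₁ := A) (s₂ := cylinder I S)
    linarith
  have e4 : mu.real B - η ≤ mu.real (cylinder J S') := by
    have := le_measureReal_sdiff (μ := mu) (s₁ := B) (s₂ := cylinder J S')
    linarith
  have e5 : 0 ≤ mu.real A - η := by rw [hη]; nlinarith
  have e6 : 0 ≤ mu.real B - η := by rw [hη]; nlinarith
  have e7 := mul_le_mul e3 e4 e6 (e5.trans e3)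
  nlinarith

end Vale.Agent.P131
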