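import Vale.Agent.P131.Field
import Vale.Agent.P131.Prob

/-! The weights of the counterexample and the localisation property. -/

open scoped ENNReal Topology
open MeasureTheory Filter

namespace Vale.Agent.P131

/-- The small sets met by every window of length `3 ^ j + 1`. -/
def U (j : ℕ) (n : ℤ) : Set Om :=
  {x | j ≤ x (Sum.inr n) ∨ ∀ i : ℕ, i < 3 ^ j → x (Sum.inr (n + 1 + i)) < j}

/-- The passenger weight put on `U j n`. -/
noncomputable def del (j : ℕ) : ℝ := (1 / 2) ^ (j * (3 ^ j + 1))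

open Classical in
/-- The passenger weight at level `j`. -/
noncomputable def uu (j : ℕ) (n : ℤ) (x : Om) : ℝ := if x ∈ U j n then del j else 1

/-- The passenger weight. -/
noncomputable def u (x : Om) (n : ℤ) : ℝ := ⨅ j, uu j n x

lemma del_pos (j : ℕ) : 0 < del j := by unfold del; positivity

lemma del_le_one (j : ℕ) : del j ≤ 1 := pow_le_one₀ (by norm_num) (by norm_num)

lemma del_anti {i j : ℕ} (h : i ≤ j) : del j ≤ del i := by
  unfold del
  refine pow_le_pow_of_le_one (by norm_num) (by norm_num) (Nat.mul_le_mul h ?_)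
  exact Nat.succ_le_succ (Nat.pow_le_pow_right (by norm_num) h)

lemma uu_nonneg (j : ℕ) (n : ℤ) (x : Om) : 0 ≤ uu j n x := by
  unfold uu; split_ifs
  · exact (del_pos j).le
  · exact zero_le_one

lemma uu_bdd (n : ℤ) (x : Om) : BddBelow (Set.range fun j => uu j n x) :=
  ⟨0, by rintro _ ⟨j, rfl⟩; exact uu_nonneg j n x⟩

lemma u_nonneg (x : Om) (n : ℤ) : 0 ≤ u x n := le_ciInf fun j => uu_nonneg j n x

lemma u_le_one (x : Om) (n : ℤ) : u x n ≤ 1 := by
  refine (ciInf_le (uu_bdd n x) 0).trans ?_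
  unfold uu; split_ifs
  · exact del_le_one 0
  · exact le_rfl

lemma u_le_del {x : Om} {n : ℤ} {j : ℕ} (h : x ∈ U j n) : u x n ≤ del j := by
  refine (ciInf_le (uu_bdd n x) j).trans ?_
  unfold uu; rw [if_pos h]

lemma meas_le (j : ℕ) (i : Idx) : MeasurableSet {x : Om | j ≤ x i} :=
  measurable_pi_apply i (MeasurableSet.of_discrete (s := Set.Ici j))

lemma meas_lt (j : ℕ) (i : Idx) : MeasurableSet {x : Om | x i < j} :=
  measurableSet_lt (measurable_pi_apply i) measurable_const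

lemma meas_U (j : ℕ) (n : ℤ) : MeasurableSet (U j n) := by
  refine (meas_le j _).union ?_
  change MeasurableSet {x : Om | ∀ i : ℕ, i < 3 ^ j → x (Sum.inr (n + 1 + i)) < j}
  simp only [Set.ofPred_forall]
  exact MeasurableSet.iInter fun i => MeasurableSet.iInter fun _ => meas_lt j _

lemma meas_u (n : ℤ) : Measurable fun x => u x n :=
  Measurable.iInf fun j => Measurable.ite (meas_U j n) measurable_const measurable_const

lemma mu_U (j : ℕ) (n : ℤ) : mu.real (U j n) ≤ 2 * (2 / 3) ^ j := by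
  have h1 := mu_ge (Sum.inr n) j
  have h2 := mu_all_lt j (fun i => Sum.inr (n + 1 + i)) fun i i' h => by simpa using h
  have h3 : (1 / 2 : ℝ) ^ j ≤ (2 / 3) ^ j := pow_le_pow_left₀ (by norm_num) (by norm_num) j
  have h4 : mu.real (U j n) ≤ _ := measureReal_union_le (μ := mu) {x | j ≤ x (Sum.inr n)}
    {x | ∀ i : ℕ, i < 3 ^ j → x (Sum.inr (n + 1 + i)) < j}
  linarith

lemma ae_u_pos : ∀ᵐ x ∂mu, ∀ n, 0 < u x n := by
  rw [ae_all_iff]
  intro n
  have hs : (∑' j, mu (U j n)) ≠ ∞ := by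
    have hsum : Summable fun j : ℕ => 2 * (2 / 3 : ℝ) ^ j :=
      (summable_geometric_of_lt_one (by norm_num) (by norm_num)).mul_left 2
    refine ne_top_of_le_ne_top (hsum.tsum_ofReal_ne_top) (ENNReal.tsum_le_tsum fun j => ?_)
    rw [← ofReal_measureReal]
    exact ENNReal.ofReal_le_ofReal (mu_U j n)
  filter_upwards [ae_eventually_notMem hs] with x hx
  obtain ⟨j0, hj0⟩ := eventually_atTop.1 hx
  refine lt_of_lt_of_le (del_pos j0) (le_ciInf fun j => ?_)
  unfold uu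
  split_ifs with h
  · refine del_anti ?_
    by_contra hc
    exact hj0 j (by omega) h
  · exact del_le_one j0

lemma u_congr {x y : Om} {n n' : ℤ} (h : ∀ i : ℤ, x (Sum.inr (n + i)) = y (Sum.inr (n' + i))) :
    u x n = u y n' := by
  unfold u
  congr 1
  funext j
  have : x ∈ U j n ↔ y ∈ U j n' := by
    have h0 := h 0
    rw [add_zero, add_zero] at h0
    simp only [U, Set.mem_ofPred_eq, add_assoc, h, h0]
  unfold uu
  rw [this]

lemma window (x : Om) (j : ℕ) (n : ℤ) :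
    ∃ s : ℤ, n - ((3 ^ j + 1 : ℕ) : ℤ) ≤ s ∧ s < n ∧ x ∈ U j s := by
  by_cases h : x ∈ U j (n - ((3 ^ j + 1 : ℕ) : ℤ))
  · refine ⟨_, le_rfl, ?_, h⟩
    generalize 3 ^ j = L
    omega
  · simp only [U, Set.mem_ofPred_eq, not_or, not_forall, not_lt] at h
    obtain ⟨-, i, hi, h⟩ := h
    refine ⟨n - ((3 ^ j + 1 : ℕ) : ℤ) + 1 + i, by omega, ?_, Or.inl h⟩
    generalize 3 ^ j = L at hi
    omega

lemma meas_low (N : ℕ) (m : ℝ) :
    MeasurableSet {x : Om | ∃ n ∈ Finset.Icc (-(N : ℤ)) N, u x n < m} := by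
  simp only [Set.ofPred_exists, Set.ofPred_and]
  exact MeasurableSet.iUnion fun n => (MeasurableSet.const _).inter
    (measurableSet_lt (meas_u n) measurable_const)

lemma exists_low (N : ℕ) (η : ℝ) (hη : 0 < η) :
    ∃ m : ℝ, 0 < m ∧ mu.real {x | ∃ n ∈ Finset.Icc (-(N : ℤ)) N, u x n < m} < η := by
  let A : ℕ → Set Om := fun i => {x | ∃ n ∈ Finset.Icc (-(N : ℤ)) N, u x n < 1 / ((i : ℝ) + 1)}
  have hanti : Antitone A := by
    rintro i i' h x ⟨n, hn, hx⟩
    exact ⟨n, hn, hx.trans_le (Nat.one_div_le_one_div h)⟩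
  have hlim := tendsto_measure_iInter_atTop (μ := mu)
    (fun i => (meas_low N _).nullMeasurableSet) hanti ⟨0, measure_ne_top _ _⟩
  have hnull : mu (⋂ i, A i) = 0 := by
    refine measure_mono_null ?_ ae_u_pos
    intro x hx hpos
    have : ∀ᶠ i : ℕ in atTop, ∀ n ∈ Finset.Icc (-(N : ℤ)) N, 1 / ((i : ℝ) + 1) < u x n := by
      rw [eventually_all_finset]
      intro n _
      exact tendsto_one_div_add_atTop_nhds_zero_nat.eventually (gt_mem_nhds (hpos n))
    obtain ⟨i, hi⟩ := this.exists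
    obtain ⟨n, hn, hx⟩ := Set.mem_iInter.1 hx i
    exact absurd (hi n hn) hx.not_gt
  rw [hnull] at hlim
  obtain ⟨i, hi⟩ := (hlim.eventually (gt_mem_nhds (ENNReal.ofReal_pos.2 hη))).exists
  exact ⟨1 / ((i : ℝ) + 1), Nat.one_div_pos_of_nat, ENNReal.toReal_lt_of_lt_ofReal hi⟩

/-- A lower bound of the passenger weights on the window of level `l`, valid with high
probability. -/
noncomputable def mlow (l : ℕ) : ℝ := (exists_low (3 ^ l) ((1 / 2) ^ l) (by positivity)).choose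

lemma mlow_pos (l : ℕ) : 0 < mlow l :=
  (exists_low (3 ^ l) ((1 / 2) ^ l) (by positivity)).choose_spec.1

lemma mlow_spec (l : ℕ) : mu.real {x | ∃ n ∈ Finset.Icc (-((3 ^ l : ℕ) : ℤ)) (3 ^ l : ℕ),
    u x n < mlow l} < (1 / 2) ^ l :=
  (exists_low (3 ^ l) ((1 / 2) ^ l) (by positivity)).choose_spec.2

/-- The threshold of the fibre lemma. -/
noncomputable def thr (N : ℕ) (m : ℝ) (R : ℕ) : ℝ :=
  if h : 0 < m then (fibre N m (R + 1) h (by positivity)).choose else 1

lemma thr_pos (N : ℕ) (m : ℝ) (R : ℕ) : 0 < thr N m R := by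
  unfold thr; split_ifs with h
  · exact (fibre N m (R + 1) h (by positivity)).choose_spec.1
  · exact one_pos

lemma thr_spec (N : ℕ) (m : ℝ) (R : ℕ) (h : 0 < m) : ∀ t : ℕ, t ≤ N → ∀ a b : ℤ,
    -(t : ℤ) < a → b ≤ t → a ≤ b → Good t m (R + 1) (thr N m R) a b := by
  unfold thr; rw [dif_pos h]
  exact (fibre N m (R + 1) h (by positivity)).choose_spec.2

lemma Good.mono {t : ℕ} {m R R' θ : ℝ} {a b : ℤ} (h : Good t m R' θ a b) (hR : 0 < R)
    (hRR : R ≤ R') : Good t m R θ a b := by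
  intro w hw f g din dout hd h1 h2 h3 h4 h5 h6 h7 h8
  have : R'⁻¹ ≤ R⁻¹ := inv_anti₀ hR hRR
  exact h w hw f g din dout hd h1 h2 h3 h4 (h5.trans hRR) (h6.trans hRR) (this.trans h7)
    (this.trans h8)

/-- The depth of a cut of a given level. -/
noncomputable def eps : ℕ → ℝ
  | 0 => 1
  | j + 1 => min (eps j) (thr (3 ^ (j + 1)) (eps j * mlow (j + 1)) (j + 1))

lemma eps_pos (j : ℕ) : 0 < eps j := by
  induction j with
  | zero => exact one_pos
  | succ j ih => exact lt_min ih (thr_pos _ _ _)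

lemma eps_anti : Antitone eps := antitone_nat_of_succ_le fun _ => min_le_left _ _

lemma eps_le_one (j : ℕ) : eps j ≤ 1 := eps_anti (Nat.zero_le j)

lemma abs_eps_le (j : ℕ) : |eps j| ≤ 1 := by
  rw [abs_of_pos (eps_pos j)]; exact eps_le_one j

lemma meas_eps (i : Idx) : Measurable fun x : Om => eps (x i) :=
  (Measurable.of_discrete (f := eps)).comp (measurable_pi_apply i)

/-- The weights of the counterexample. -/
noncomputable def wts : Weights Om where
  w x n := eps (x (Sum.inl n)) * u x n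
  bdd x n := by
    rw [abs_mul, abs_of_nonneg (u_nonneg x n)]
    exact mul_le_one₀ (abs_eps_le _) (u_nonneg x n) (u_le_one x n)
  meas n := (meas_eps _).mul (meas_u n)

lemma wts_w (x : Om) (n : ℤ) : wts.w x n = eps (x (Sum.inl n)) * u x n := rfl

lemma wts_nonneg (x : Om) (n : ℤ) : 0 ≤ wts.w x n := mul_nonneg (eps_pos _).le (u_nonneg x n)

lemma wts_le_eps (x : Om) (n : ℤ) : |wts.w x n| ≤ eps (x (Sum.inl n)) := by
  rw [abs_of_nonneg (wts_nonneg x n)]
  exact mul_le_of_le_one_right (eps_pos _).le (u_le_one x n)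

lemma wts_le_u (x : Om) (n : ℤ) : |wts.w x n| ≤ u x n := by
  rw [abs_of_nonneg (wts_nonneg x n)]
  exact mul_le_of_le_one_left (u_nonneg x n) (eps_le_one _)

lemma wts_sig (x : Om) (n : ℤ) : wts.w (sig x) n = wts.w x (n - 1) := by
  rw [wts_w, wts_w, u_congr (x := sig x) (y := x) (n := n) (n' := n - 1) fun i => by
    simp only [sig, sh, Function.comp, Sum.map_inr]; congr 2; ring]
  rfl

lemma ae_wts_ne : ∀ᵐ x ∂mu, wts.w x 0 ≠ 0 := by
  filter_upwards [ae_u_pos] with x hx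
  exact (mul_pos (eps_pos _) (hx 0)).ne'

lemma norm_pow_le (j : ℕ) : ‖wts.T mu ^ (3 ^ j + 1)‖ ≤ ((1 / 2) ^ j) ^ (3 ^ j + 1) := by
  rw [← pow_mul]
  refine wts.norm_T_pow_le _ _ (del_pos j).le (Eventually.of_forall fun x n => ?_)
  obtain ⟨s, h1, h2, h3⟩ := window x j n
  exact (abs_beta_le _ (wts.bdd x) _ n s h1 h2).trans ((wts_le_u x s).trans (u_le_del h3))

/-- The swap of the cut coordinates at `-t` and `t`. -/
def sw (t : ℕ) (x : Om) : Om := x ∘ Equiv.swap (Sum.inl (-(t : ℤ))) (Sum.inl (t : ℤ))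

lemma mp_sw (t : ℕ) : MeasurePreserving (sw t) mu mu := mp_comp (Equiv.injective _)

lemma sw_sw (t : ℕ) (x : Om) : sw t (sw t x) = x := by
  funext i; simp [sw]

lemma sw_neg (t : ℕ) (x : Om) : sw t x (Sum.inl (-(t : ℤ))) = x (Sum.inl (t : ℤ)) := by
  simp [sw]

lemma sw_pos (t : ℕ) (x : Om) : sw t x (Sum.inl (t : ℤ)) = x (Sum.inl (-(t : ℤ))) := by
  simp [sw]

lemma sw_inl (t : ℕ) (x : Om) {n : ℤ} (h1 : n ≠ -(t : ℤ)) (h2 : n ≠ t) :
    sw t x (Sum.inl n) = x (Sum.inl n) := by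
  simp only [sw, Function.comp]
  rw [Equiv.swap_apply_of_ne_of_ne (by simpa using h1) (by simpa using h2)]

lemma sw_inr (t : ℕ) (x : Om) (n : ℤ) : sw t x (Sum.inr n) = x (Sum.inr n) := by
  simp only [sw, Function.comp]
  rw [Equiv.swap_apply_of_ne_of_ne (by simp) (by simp)]

lemma u_sw (t : ℕ) (x : Om) (n : ℤ) : u (sw t x) n = u x n :=
  u_congr fun _ => sw_inr t x _

lemma sw_intertwine (t : ℕ) (ht : 0 < t) (y : Om) (n : ℤ) :
    dg t (eps (y (Sum.inl (-(t : ℤ))))) (eps (y (Sum.inl (t : ℤ)))) (n + 1) * wts.w (sw t y) n =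
      wts.w y n * dg t (eps (y (Sum.inl (-(t : ℤ))))) (eps (y (Sum.inl (t : ℤ)))) n := by
  rw [wts_w, wts_w, u_sw]
  unfold dg
  by_cases h1 : n = -(t : ℤ)
  · subst h1
    rw [sw_neg, if_pos (by omega), if_neg (by omega)]; ring
  · by_cases h2 : n = t
    · subst h2
      rw [sw_pos, if_neg (by omega), if_pos (by omega)]; ring
    · rw [sw_inl t y h1 h2]
      by_cases h3 : -(t : ℤ) < n ∧ n ≤ t
      · rw [if_pos h3, if_pos (by omega)]; ring
      · rw [if_neg h3, if_neg (by omega)]; ring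

/-- No cut of level `l` strictly inside the window of half length `t`. -/
def Inner (l t : ℕ) : Set Om := {x | ∀ n : ℤ, -(t : ℤ) < n → n < t → x (Sum.inl n) < l}

/-- The nearest cut of level `l` is at distance `t`. -/
def Q (l t : ℕ) : Set Om :=
  Inner l t ∩ {x | l ≤ x (Sum.inl (t : ℤ)) ∨ l ≤ x (Sum.inl (-(t : ℤ)))}

lemma meas_Inner (l t : ℕ) : MeasurableSet (Inner l t) := by
  simp only [Inner, Set.ofPred_forall]
  exact MeasurableSet.iInter fun _ => MeasurableSet.iInter fun _ =>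
    MeasurableSet.iInter fun _ => meas_lt l _

lemma meas_Q (l t : ℕ) : MeasurableSet (Q l t) :=
  (meas_Inner l t).inter ((meas_le l _).union (meas_le l _))

lemma sw_Inner {l t : ℕ} {x : Om} (h : x ∈ Inner l t) : sw t x ∈ Inner l t := by
  intro n h1 h2
  rw [sw_inl t x (by omega) (by omega)]
  exact h n h1 h2

lemma Q_disjoint (l : ℕ) {t t' : ℕ} (h : t ≠ t') : Disjoint (Q l t) (Q l t') := by
  wlog hlt : t < t' generalizing t t'
  · exact (this h.symm (by omega)).symm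
  rw [Set.disjoint_left]
  rintro x ⟨-, h1⟩ ⟨h2, -⟩
  rcases h1 with h1 | h1
  · exact absurd (h2 t (by omega) (by omega)) (not_lt.2 h1)
  · exact absurd (h2 (-(t : ℤ)) (by omega) (by omega)) (not_lt.2 h1)

lemma sum_sw_le (l : ℕ) (s : Finset ℕ) (D : Set Om) (hD : MeasurableSet D) :
    ∑ t ∈ s, mu.real (sw t ⁻¹' (Q l t ∩ D)) ≤ mu.real D := by
  have : ∀ t, mu.real (sw t ⁻¹' (Q l t ∩ D)) = mu.real (Q l t ∩ D) := fun t => by
    rw [measureReal_def, (mp_sw t).measure_preimage ((meas_Q l t).inter hD).nullMeasurableSet]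
    rfl
  simp only [this]
  rw [← measureReal_biUnion_finset]
  · refine measureReal_mono ?_
    intro x hx
    obtain ⟨t, -, hx⟩ := Set.mem_iUnion₂.1 hx
    exact hx.2
  · intro t _ t' _ h
    exact (Q_disjoint l h).mono Set.inter_subset_left Set.inter_subset_left
  · intro t _
    exact (meas_Q l t).inter hD

/-- The exceptional set of level `l`. -/
def Bad (M l : ℕ) : Set Om :=
  (⋃ n ∈ Finset.Icc (-(M : ℤ)) M, {x | l ≤ x (Sum.inl n)}) ∪
    ({x | ∀ i : ℕ, i < 3 ^ l → x (Sum.inl ((i : ℤ) + 1)) < l} ∪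
      ((⋃ t ∈ Finset.Icc 1 (3 ^ l),
          {x | l ≤ x (Sum.inl ((t : ℕ) : ℤ)) ∧ l ≤ x (Sum.inl (-((t : ℕ) : ℤ)))}) ∪
        {x | ∃ n ∈ Finset.Icc (-((3 ^ l : ℕ) : ℤ)) (3 ^ l : ℕ), u x n < mlow l}))

lemma mu_Bad (M l : ℕ) : mu.real (Bad M l) ≤ (2 * M + 4) * (3 / 4) ^ l := by
  have h34 : (1 / 2 : ℝ) ^ l ≤ (3 / 4) ^ l := pow_le_pow_left₀ (by norm_num) (by norm_num) l
  have h34' : (2 / 3 : ℝ) ^ l ≤ (3 / 4) ^ l := pow_le_pow_left₀ (by norm_num) (by norm_num) l
  have e1 : mu.real (⋃ n ∈ Finset.Icc (-(M : ℤ)) M, {x : Om | l ≤ x (Sum.inl n)}) ≤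
      (2 * M + 1) * (3 / 4) ^ l := by
    refine (measureReal_biUnion_finset_le _ _).trans ?_
    simp only [mu_ge]
    rw [Finset.sum_const, Int.card_Icc, nsmul_eq_mul]
    have : ((M : ℤ) + 1 - -(M : ℤ)).toNat = 2 * M + 1 := by omega
    rw [this]
    push_cast
    exact mul_le_mul_of_nonneg_left h34 (by positivity)
  have e2 := mu_all_lt l (fun i => Sum.inl ((i : ℤ) + 1)) fun i i' h => by simpa using h
  have e3 : mu.real (⋃ t ∈ Finset.Icc 1 (3 ^ l),
      {x : Om | l ≤ x (Sum.inl ((t : ℕ) : ℤ)) ∧ l ≤ x (Sum.inl (-((t : ℕ) : ℤ)))}) ≤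
      (3 / 4) ^ l := by
    refine (measureReal_biUnion_finset_le _ _).trans ?_
    rw [Finset.sum_congr rfl (g := fun _ => (1 / 4 : ℝ) ^ l)]
    · rw [Finset.sum_const, Nat.card_Icc, nsmul_eq_mul, Nat.add_sub_cancel]
      push_cast
      rw [← mul_pow]
      norm_num
    · intro t ht
      rw [Finset.mem_Icc] at ht
      refine mu_ge_ge ?_ l
      simp only [ne_eq, Sum.inl.injEq]
      omega
  have e4 := mlow_spec l
  have := (measureReal_union_le (μ := mu) _ _).trans (add_le_add e1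
    ((measureReal_union_le _ _).trans (add_le_add e2
      ((measureReal_union_le _ _).trans (add_le_add e3 e4.le)))))
  refine this.trans ?_
  linarith

/-- The set on which the swap at distance `t` is used. -/
def Z (E : Set Om) (l t : ℕ) : Set Om :=
  {y | y ∈ E ∧ sw t y ∈ E ∧ y ∈ Inner l t ∧ l ≤ y (Sum.inl (t : ℤ)) ∧
    y (Sum.inl (-(t : ℤ))) < l ∧
    ∀ n ∈ Finset.Icc (-((3 ^ l : ℕ) : ℤ)) (3 ^ l : ℕ), mlow l ≤ u y n}

lemma cover (E : Set Om) (I : Finset Idx) (S : Set (I → ℕ)) (M l : ℕ)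
    (hM : ∀ i ∈ I, (pos i).natAbs ≤ M) :
    E ⊆ Bad M l ∪ ((E \ cylinder I S) ∪
      ((⋃ t ∈ Finset.Ioc M (3 ^ l), (Z E l t ∪ sw t ⁻¹' Z E l t)) ∪
        ⋃ t ∈ Finset.Ioc M (3 ^ l), sw t ⁻¹' (Q l t ∩ (cylinder I S \ E)))) := by
  classical
  intro x hxE
  by_cases hbad : x ∈ Bad M l
  · exact Or.inl hbad
  right
  by_cases hcyl : x ∈ cylinder I S
  swap
  · exact Or.inl ⟨hxE, hcyl⟩
  right
  simp only [Bad, Set.mem_union, Set.mem_iUnion, Set.mem_ofPred_eq, not_or, not_exists,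
    not_forall, not_lt, not_le, not_and, Finset.mem_Icc] at hbad
  obtain ⟨b1, ⟨i, hi, b2⟩, b3, b4⟩ := hbad
  have hex : ∃ t : ℕ, l ≤ x (Sum.inl (t : ℤ)) ∨ l ≤ x (Sum.inl (-(t : ℤ))) :=
    ⟨i + 1, Or.inl (by exact_mod_cast b2)⟩
  set t := Nat.find hex with ht
  have htle : t ≤ 3 ^ l :=
    (Nat.find_min' hex (m := i + 1) (Or.inl (by exact_mod_cast b2))).trans hi
  have hspec : l ≤ x (Sum.inl (t : ℤ)) ∨ l ≤ x (Sum.inl (-(t : ℤ))) := Nat.find_spec hex
  have hMt : M < t := by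
    by_contra hc
    rcases hspec with h | h
    · exact absurd (b1 t ⟨by omega, by omega⟩) (not_lt.2 h)
    · exact absurd (b1 (-(t : ℤ)) ⟨by omega, by omega⟩) (not_lt.2 h)
  have hinner : x ∈ Inner l t := by
    intro n h1 h2
    have := Nat.find_min hex (m := n.natAbs) (by omega)
    rw [not_or, not_le, not_le] at this
    rcases Int.natAbs_eq n with h | h
    · rw [h]; exact this.1
    · rw [h]; exact this.2
  have hmem : t ∈ Finset.Ioc M (3 ^ l) := Finset.mem_Ioc.2 ⟨hMt, htle⟩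
  have hV : ∀ n ∈ Finset.Icc (-((3 ^ l : ℕ) : ℤ)) (3 ^ l : ℕ), mlow l ≤ u x n :=
    fun n hn => b4 n (Finset.mem_Icc.1 hn)
  by_cases hsE : sw t x ∈ E
  · left
    refine Set.mem_iUnion₂.2 ⟨t, hmem, ?_⟩
    by_cases hp : l ≤ x (Sum.inl (t : ℤ))
    · exact Or.inl ⟨hxE, hsE, hinner, hp, b3 t ⟨by omega, htle⟩ hp, hV⟩
    · refine Or.inr ⟨hsE, by rw [sw_sw]; exact hxE, sw_Inner hinner, ?_, ?_, ?_⟩
      · rw [sw_pos]; exact hspec.resolve_left hp
      · rw [sw_neg]; exact not_le.1 hp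
      · intro n hn
        rw [u_sw]; exact hV n hn
  · right
    refine Set.mem_iUnion₂.2 ⟨t, hmem, ⟨sw_Inner hinner, ?_⟩, ?_, hsE⟩
    · change l ≤ sw t x (Sum.inl (t : ℤ)) ∨ l ≤ sw t x (Sum.inl (-(t : ℤ)))
      rw [sw_pos, sw_neg]
      exact hspec.symm
    · rw [mem_cylinder] at hcyl ⊢
      have : I.restrict (sw t x) = I.restrict x := by
        funext ⟨i, hi⟩
        have := hM i hi
        rcases i with n | n
        · simp only [pos, Sum.elim_inl, id] at this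
          exact sw_inl t x (by omega) (by omega)
        · exact sw_inr t x n
      rw [this]; exact hcyl

lemma meas_Z (E : Set Om) (hE : MeasurableSet E) (l t : ℕ) : MeasurableSet (Z E l t) := by
  refine hE.inter (((mp_sw t).measurable hE).inter ((meas_Inner l t).inter
    ((meas_le l _).inter ((meas_lt l _).inter ?_))))
  change MeasurableSet
    {y : Om | ∀ n ∈ Finset.Icc (-((3 ^ l : ℕ) : ℤ)) (3 ^ l : ℕ), mlow l ≤ u y n}
  simp only [Set.ofPred_forall]
  exact MeasurableSet.iInter fun n => MeasurableSet.iInter fun _ =>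
    measurableSet_le measurable_const (meas_u n)

lemma exists_Z (E : Set Om) (hE : MeasurableSet E) (hE0 : mu E ≠ 0) (M0 : ℕ) :
    ∃ l t : ℕ, M0 < l ∧ M0 < t ∧ t ≤ 3 ^ l ∧ mu (Z E l t) ≠ 0 := by
  have hα := real_pos hE0
  obtain ⟨I, S, hS, hI1, hI2⟩ := exists_cylinder E hE (mu.real E / 4) (by positivity)
  obtain ⟨M1, hM1⟩ := exists_bound I
  set M := M0 + M1 with hM
  have hlim : Tendsto (fun l : ℕ => (2 * (M : ℝ) + 4) * (3 / 4 : ℝ) ^ l) atTop (𝓝 0) := by
    simpa using (tendsto_pow_atTop_nhds_zero_of_lt_one (r := (3 / 4 : ℝ)) (by norm_num)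
      (by norm_num)).const_mul (2 * (M : ℝ) + 4)
  obtain ⟨l, hl1, hl2⟩ := ((hlim.eventually (gt_mem_nhds (half_pos hα))).and
    (eventually_gt_atTop M0)).exists
  by_contra hcon
  push Not at hcon
  have hz : ∀ t ∈ Finset.Ioc M (3 ^ l), mu.real (Z E l t ∪ sw t ⁻¹' Z E l t) = 0 := by
    intro t ht
    rw [Finset.mem_Ioc] at ht
    have h0 := hcon l t hl2 (by omega) ht.2
    rw [measureReal_def, measure_union_null h0 (by
      rw [(mp_sw t).measure_preimage (meas_Z E hE l t).nullMeasurableSet, h0])]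
    rfl
  have mI : MeasurableSet (cylinder I S : Set Om) :=
    MeasurableSet.cylinder (α := fun _ : Idx => ℕ) I hS
  have e1 := (measureReal_biUnion_finset_le (μ := mu) (Finset.Ioc M (3 ^ l))
    fun t => Z E l t ∪ sw t ⁻¹' Z E l t).trans (Finset.sum_eq_zero hz).le
  have e2 := (measureReal_biUnion_finset_le (μ := mu) (Finset.Ioc M (3 ^ l))
    fun t => sw t ⁻¹' (Q l t ∩ (cylinder I S \ E))).trans (sum_sw_le l _ _ (mI.diff hE))
  have e3 := (measureReal_mono (μ := mu) (cover E I S M l fun i hi => (hM1 i hi).trans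
    (by omega))).trans ((measureReal_union_le _ _).trans (add_le_add (mu_Bad M l)
      ((measureReal_union_le _ _).trans (add_le_add hI1.le
        ((measureReal_union_le _ _).trans (add_le_add e1 e2))))))
  linarith

theorem wts_local : wts.Local mu := by
  intro E hE hE0 R a b hab
  obtain ⟨l, t, hl, ht, htl, hZ⟩ := exists_Z E hE hE0 (R + a.natAbs + b.natAbs)
  obtain ⟨j, rfl⟩ : ∃ j, l = j + 1 := ⟨l - 1, by omega⟩
  have hm : 0 < eps j * mlow (j + 1) := mul_pos (eps_pos j) (mlow_pos _)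
  refine ⟨t, sw t, fun y => eps (y (Sum.inl (-(t : ℤ)))), fun y => eps (y (Sum.inl (t : ℤ))),
    eps j * mlow (j + 1), thr (3 ^ (j + 1)) (eps j * mlow (j + 1)) (j + 1), mp_sw t,
    meas_eps _, meas_eps _, fun y => abs_eps_le _, fun y => abs_eps_le _,
    sw_intertwine t (by omega), ?_, ?_⟩
  · refine (thr_spec _ _ (j + 1) hm t htl a b (by omega) (by omega) hab).mono (by positivity) ?_
    have : R ≤ j + 1 := by omega
    exact_mod_cast Nat.succ_le_succ this
  · refine fun h0 => hZ (measure_mono_null ?_ h0)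
    rintro y ⟨h1, h2, h3, h4, h5, h6⟩
    have hθ : eps (y (Sum.inl (t : ℤ))) ≤ thr (3 ^ (j + 1)) (eps j * mlow (j + 1)) (j + 1) :=
      (eps_anti h4).trans (min_le_right _ _)
    have htl' : (t : ℤ) ≤ ((3 ^ (j + 1) : ℕ) : ℤ) := by exact_mod_cast htl
    refine ⟨h1, h2, fun n hn1 hn2 => ?_, ?_, ?_, ?_⟩
    · rw [wts_w, u_sw, sw_inl t y (by omega) (by omega)]
      refine mul_le_mul (eps_anti (Nat.lt_succ_iff.1 (h3 n hn1 hn2)))
        (h6 n (Finset.mem_Icc.2 ⟨by omega, by omega⟩)) (mlow_pos _).le (eps_pos _).le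
    · refine (wts_le_eps _ _).trans ?_
      rw [sw_neg]; exact hθ
    · have := (h6 0 (Finset.mem_Icc.2 ⟨by omega, by omega⟩)).trans (u_le_one y 0)
      exact (mul_le_of_le_one_right (eps_pos j).le this).trans
        (eps_anti (Nat.lt_succ_iff.1 h5))
    · rw [abs_of_pos (eps_pos _)]; exact hθ

theorem wts_transitive (M : Submodule ℂ (Lp K 2 mu)) (hM : IsClosed (M : Set (Lp K 2 mu)))
    (hinv : ∀ A : Lp K 2 mu →L[ℂ] Lp K 2 mu, A * wts.T mu = wts.T mu * A → ∀ x ∈ M, A x ∈ M) :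
    M = ⊥ ∨ M = ⊤ :=
  wts.transitive sig mp_sig wts_sig mixing wts_local M hM hinv

end Vale.Agent.P131
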