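import Vale.Agent.P131.Shift

/-! Fields of weighted shifts over a probability space and the abstract transitivity theorem. -/

open scoped ENNReal InnerProductSpace
open MeasureTheory

namespace Vale.Agent.P131

variable {Ω : Type*} [MeasurableSpace Ω] {μ : Measure Ω}

lemma aesm_of_coord (h : Ω → K) (hh : ∀ n, AEStronglyMeasurable (fun y => h y n) μ) :
    AEStronglyMeasurable h μ := by
  refine aestronglyMeasurable_of_tendsto_ae (Filter.atTop : Filter (Finset ℤ))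
    (f := fun s y => ∑ n ∈ s, lp.single 2 n (h y n)) (fun s => ?_)
    (Filter.Eventually.of_forall fun y => lp.hasSum_single (by norm_num) (h y))
  refine Finset.aestronglyMeasurable_fun_sum s fun n _ => ?_
  exact (lp.singleContinuousLinearMap ℂ (fun _ : ℤ => ℂ) 2 n).continuous.comp_aestronglyMeasurable
    (hh n)

lemma continuous_coord (n : ℤ) : Continuous fun f : K => f n :=
  (lp.evalCLM ℂ (fun _ : ℤ => ℂ) 2 n).continuous

/-- The data of a weighted composition operator. -/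
structure Datum (μ : Measure Ω) where
  a : Ω → ℤ → ℝ
  bdd : ∀ y n, |a y n| ≤ 1
  meas : ∀ n, Measurable fun y => a y n
  k : ℤ
  ψ : Ω → Ω
  mp : MeasurePreserving ψ μ μ

/-- The fibre operator of a datum. -/
noncomputable def Datum.fib (d : Datum μ) (y : Ω) : K →L[ℂ] K := W (d.a y) (d.bdd y) d.k

lemma Datum.memLp (d : Datum μ) (F : Lp K 2 μ) : MemLp (fun y => d.fib y (F (d.ψ y))) 2 μ := by
  have h1 : MemLp (fun y => F (d.ψ y)) 2 μ := (Lp.memLp F).comp_measurePreserving d.mp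
  refine h1.of_le (aesm_of_coord _ fun n => ?_)
    (Filter.Eventually.of_forall fun y => norm_W_apply_le _ _ _ _)
  simp only [Datum.fib, W_apply]
  refine AEStronglyMeasurable.mul ?_ ?_
  · exact (Complex.measurable_ofReal.comp (d.meas n)).aestronglyMeasurable
  · exact (continuous_coord _).comp_aestronglyMeasurable h1.1

/-- The weighted composition operator of a datum, as a linear map. -/
noncomputable def Datum.lin (d : Datum μ) : Lp K 2 μ →ₗ[ℂ] Lp K 2 μ where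
  toFun F := (d.memLp F).toLp _
  map_add' F G := by
    rw [← MemLp.toLp_add]
    apply MemLp.toLp_congr
    filter_upwards [d.mp.quasiMeasurePreserving.ae (Lp.coeFn_add F G)] with y hy
    simp only [Pi.add_apply] at hy ⊢
    rw [hy, map_add]
  map_smul' c F := by
    rw [RingHom.id_apply, ← MemLp.toLp_const_smul]
    apply MemLp.toLp_congr
    filter_upwards [d.mp.quasiMeasurePreserving.ae (Lp.coeFn_smul c F)] with y hy
    simp only [Pi.smul_apply] at hy ⊢
    rw [hy, map_smul]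

lemma Datum.lin_coe (d : Datum μ) (F : Lp K 2 μ) :
    d.lin F =ᵐ[μ] fun y => d.fib y (F (d.ψ y)) := MemLp.coeFn_toLp (d.memLp F)

lemma Datum.norm_lin_le (d : Datum μ) (F : Lp K 2 μ) : ‖d.lin F‖ ≤ 1 * ‖F‖ := by
  rw [one_mul, ← Lp.norm_compMeasurePreserving F d.mp]
  apply Lp.norm_le_norm_of_ae_le
  filter_upwards [d.lin_coe F, Lp.coeFn_compMeasurePreserving F d.mp] with y h1 h2
  rw [h1, h2]
  exact norm_W_apply_le _ _ _ _

/-- The weighted composition operator of a datum. -/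
noncomputable def Datum.op (d : Datum μ) : Lp K 2 μ →L[ℂ] Lp K 2 μ :=
  d.lin.mkContinuous 1 d.norm_lin_le

lemma Datum.op_coe (d : Datum μ) (F : Lp K 2 μ) :
    d.op F =ᵐ[μ] fun y => d.fib y (F (d.ψ y)) := d.lin_coe F

/-- A measurable family of bounded weight sequences. -/
structure Weights (Ω : Type*) [MeasurableSpace Ω] where
  w : Ω → ℤ → ℝ
  bdd : ∀ y n, |w y n| ≤ 1
  meas : ∀ n, Measurable fun y => w y n

/-- The datum of the direct integral of the weighted shifts. -/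
noncomputable def Weights.datum (ww : Weights Ω) (μ : Measure Ω) : Datum μ where
  a y n := ww.w y (n - 1)
  bdd y n := ww.bdd y (n - 1)
  meas n := ww.meas (n - 1)
  k := -1
  ψ := id
  mp := MeasurePreserving.id μ

/-- The direct integral of the weighted shifts. -/
noncomputable def Weights.T (ww : Weights Ω) (μ : Measure Ω) : Lp K 2 μ →L[ℂ] Lp K 2 μ :=
  (ww.datum μ).op

lemma Weights.T_coe (ww : Weights Ω) (F : Lp K 2 μ) :
    ww.T μ F =ᵐ[μ] fun y => Tw (ww.w y) (ww.bdd y) (F y) := (ww.datum μ).op_coe F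

lemma Weights.T_pow_coe (ww : Weights Ω) (k : ℕ) (F : Lp K 2 μ) :
    (ww.T μ ^ k) F =ᵐ[μ] fun y => (Tw (ww.w y) (ww.bdd y) ^ k) (F y) := by
  induction k with
  | zero => exact Filter.Eventually.of_forall fun y => by simp
  | succ k ih =>
    rw [pow_succ', mul_apply_eq_comp]
    filter_upwards [ww.T_coe ((ww.T μ ^ k) F), ih] with y h1 h2
    rw [h1, h2, pow_succ', mul_apply_eq_comp]

lemma Weights.commute (ww : Weights Ω) (d : Datum μ)
    (h : ∀ y n, d.a y (n + 1) * ww.w (d.ψ y) (n + d.k) = ww.w y n * d.a y n) :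
    d.op * ww.T μ = ww.T μ * d.op := by
  ext1 F
  apply Lp.ext
  rw [mul_apply_eq_comp, mul_apply_eq_comp]
  filter_upwards [d.op_coe (ww.T μ F), ww.T_coe (d.op F), d.op_coe F,
    d.mp.quasiMeasurePreserving.ae (ww.T_coe F)] with y h1 h2 h3 h4
  rw [h1, h2, h3, h4]
  apply lp.ext
  funext n
  simp only [Datum.fib, W_apply, Tw_apply]
  have := h y (n - 1)
  rw [sub_add_cancel] at this
  rw [show n + d.k - 1 = n - 1 + d.k by ring, ← mul_assoc, ← mul_assoc, ← Complex.ofReal_mul,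
    ← Complex.ofReal_mul, this]

lemma Weights.norm_T_pow_le (ww : Weights Ω) (k : ℕ) (c : ℝ) (hc : 0 ≤ c)
    (h : ∀ᵐ y ∂μ, ∀ n, |beta (ww.w y) k n| ≤ c) : ‖ww.T μ ^ k‖ ≤ c := by
  refine ContinuousLinearMap.opNorm_le_bound _ hc fun F => ?_
  apply Lp.norm_le_mul_norm_of_ae_le_mul
  filter_upwards [ww.T_pow_coe k F, h] with y h1 h2
  rw [h1]
  exact norm_Tw_pow_apply_le _ _ k c hc h2 _

lemma exists_coord_ne_zero (F : Lp K 2 μ) (hF : F ≠ 0) : ∃ a : ℤ, μ {y | F y a ≠ 0} ≠ 0 := by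
  by_contra hcon
  push Not at hcon
  apply hF
  apply Lp.ext
  have : ∀ᵐ y ∂μ, ∀ a : ℤ, F y a = 0 := ae_all_iff.2 fun a => hcon a
  filter_upwards [this, Lp.coeFn_zero K 2 μ] with y h1 h2
  rw [h2]
  apply lp.ext
  funext n
  simpa using h1 n

lemma measurable_coord (F : Lp K 2 μ) (n : ℤ) : Measurable fun y => F y n :=
  ((continuous_coord n).comp_stronglyMeasurable (Lp.stronglyMeasurable F)).measurable

lemma measurable_norm' (F : Lp K 2 μ) : Measurable fun y => ‖F y‖ :=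
  (Lp.stronglyMeasurable F).norm.measurable

lemma Weights.ae_inner_eq_zero (ww : Weights Ω) (M : Submodule ℂ (Lp K 2 μ))
    (hinv : ∀ A : Lp K 2 μ →L[ℂ] Lp K 2 μ, A * ww.T μ = ww.T μ * A → ∀ x ∈ M, A x ∈ M)
    (F G : Lp K 2 μ) (hF : F ∈ M) (hG : G ∈ Mᗮ) : ∀ᵐ y ∂μ, ⟪G y, F y⟫_ℂ = 0 := by
  refine (L2.integrable_inner (𝕜 := ℂ) G F).ae_eq_zero_of_forall_setIntegral_eq_zero
    fun s hs _ => ?_
  let d : Datum μ :=
    { a := fun y _ => s.indicator 1 y
      bdd := fun y _ => by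
        by_cases h : y ∈ s <;> simp [h]
      meas := fun _ => measurable_one.indicator hs
      k := 0
      ψ := id
      mp := MeasurePreserving.id μ }
  have hc : d.op * ww.T μ = ww.T μ * d.op := ww.commute d fun y n => by
    simp [d, mul_comm]
  have h0 : ⟪G, d.op F⟫_ℂ = 0 := Submodule.inner_left_of_mem_orthogonal (hinv _ hc F hF) hG
  rw [L2.inner_def] at h0
  rw [← integral_indicator hs, ← h0]
  apply integral_congr_ae
  filter_upwards [d.op_coe F] with y hy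
  rw [hy]
  by_cases h : y ∈ s
  · have : d.fib y (F (d.ψ y)) = F y := by
      apply lp.ext
      funext n
      simp [d, Datum.fib, h]
    rw [this, Set.indicator_of_mem h]
  · have : d.fib y (F (d.ψ y)) = 0 := by
      apply lp.ext
      funext n
      simp [d, Datum.fib, h]
    rw [this, Set.indicator_of_notMem h, inner_zero_right]

/-- The localisation property: a swap of a deep cut is available inside every set of positive
measure. -/
def Weights.Local (ww : Weights Ω) (μ : Measure Ω) : Prop :=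
  ∀ E : Set Ω, MeasurableSet E → μ E ≠ 0 → ∀ (R : ℕ) (a b : ℤ), a ≤ b →
    ∃ (t : ℕ) (τ : Ω → Ω) (din dout : Ω → ℝ) (m θ : ℝ), MeasurePreserving τ μ μ ∧
      Measurable din ∧ Measurable dout ∧ (∀ y, |din y| ≤ 1) ∧ (∀ y, |dout y| ≤ 1) ∧
      (∀ y n, dg t (din y) (dout y) (n + 1) * ww.w (τ y) n =
        ww.w y n * dg t (din y) (dout y) n) ∧
      Good t m (R + 1) θ a b ∧
      μ {y | y ∈ E ∧ τ y ∈ E ∧ (∀ n, -(t : ℤ) < n → n < t → m ≤ ww.w (τ y) n) ∧
        |ww.w (τ y) (-(t : ℤ))| ≤ θ ∧ m ≤ din y ∧ |dout y| ≤ θ} ≠ 0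

theorem Weights.transitive (ww : Weights Ω) (σ : Ω → Ω) (hσ : MeasurePreserving σ μ μ)
    (hσw : ∀ y n, ww.w (σ y) n = ww.w y (n - 1))
    (H1 : ∀ A B : Set Ω, MeasurableSet A → MeasurableSet B → μ A ≠ 0 → μ B ≠ 0 →
      ∀ k0 : ℕ, ∃ k : ℕ, k0 ≤ k ∧ μ (A ∩ σ^[k] ⁻¹' B) ≠ 0)
    (H2 : ww.Local μ) (M : Submodule ℂ (Lp K 2 μ)) (hM : IsClosed (M : Set (Lp K 2 μ)))
    (hinv : ∀ A : Lp K 2 μ →L[ℂ] Lp K 2 μ, A * ww.T μ = ww.T μ * A → ∀ x ∈ M, A x ∈ M) :
    M = ⊥ ∨ M = ⊤ := by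
  by_contra hcon
  push Not at hcon
  obtain ⟨hbot, htop⟩ := hcon
  obtain ⟨F0, hF0M, hF0⟩ := (Submodule.ne_bot_iff M).1 hbot
  have : CompleteSpace M := hM.completeSpace_coe
  have hperp : Mᗮ ≠ ⊥ := fun h => htop (Submodule.orthogonal_eq_bot_iff.1 h)
  obtain ⟨G, hGM, hG⟩ := (Submodule.ne_bot_iff _).1 hperp
  obtain ⟨a0, ha0⟩ := exists_coord_ne_zero F0 hF0
  obtain ⟨b, hb⟩ := exists_coord_ne_zero G hG
  have mne : ∀ (F : Lp K 2 μ) (n : ℤ), MeasurableSet {y | F y n ≠ 0} := fun F n =>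
    (measurable_coord F n (measurableSet_singleton 0)).compl
  obtain ⟨k, hk0, hk⟩ := H1 _ _ (mne G b) (mne F0 a0) hb ha0 (a0 - b).toNat
  have hiter : ∀ (j : ℕ) y n, ww.w (σ^[j] y) n = ww.w y (n - j) := by
    intro j
    induction j with
    | zero => simp
    | succ j ih =>
      intro y n
      rw [Function.iterate_succ_apply', hσw, ih]
      congr 1
      push_cast
      ring
  let dV : Datum μ :=
    { a := fun _ _ => 1
      bdd := fun _ _ => by simp
      meas := fun _ => measurable_const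
      k := k
      ψ := σ^[k]
      mp := hσ.iterate k }
  have hcV : dV.op * ww.T μ = ww.T μ * dV.op := ww.commute dV fun y n => by
    simp [dV, hiter]
  set F := dV.op F0 with hFdef
  have hFM : F ∈ M := hinv _ hcV F0 hF0M
  set a : ℤ := a0 - k with hadef
  have hab : a ≤ b := by omega
  have hpos : μ {y | G y b ≠ 0 ∧ F y a ≠ 0} ≠ 0 := by
    rw [← measure_congr (s := {y | G y b ≠ 0} ∩ σ^[k] ⁻¹' {y | F0 y a0 ≠ 0})]
    · exact hk
    · filter_upwards [dV.op_coe F0] with y hy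
      have : F y a = F0 (σ^[k] y) a0 := by
        rw [hFdef, hy]
        simp [dV, Datum.fib, hadef]
      apply propext
      change (G y b ≠ 0 ∧ F0 (σ^[k] y) a0 ≠ 0) ↔ (G y b ≠ 0 ∧ F y a ≠ 0)
      rw [this]
  let E : ℕ → Set Ω := fun R => {y | ‖F y‖ ≤ (R : ℝ) + 1 ∧ ‖G y‖ ≤ (R : ℝ) + 1 ∧
    ((R : ℝ) + 1)⁻¹ ≤ ‖F y a‖ ∧ ((R : ℝ) + 1)⁻¹ ≤ ‖G y b‖}
  have hEm : ∀ R, MeasurableSet (E R) := fun R =>
    (measurableSet_le (measurable_norm' F) measurable_const).inter
      ((measurableSet_le (measurable_norm' G) measurable_const).inter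
        ((measurableSet_le measurable_const (measurable_coord F a).norm).inter
          (measurableSet_le measurable_const (measurable_coord G b).norm)))
  have hcover : {y | G y b ≠ 0 ∧ F y a ≠ 0} ⊆ ⋃ R, E R := by
    rintro y ⟨h1, h2⟩
    obtain ⟨R, hR⟩ := exists_nat_ge (‖F y‖ + ‖G y‖ + ‖F y a‖⁻¹ + ‖G y b‖⁻¹)
    have p1 : 0 < ‖F y a‖ := norm_pos_iff.2 h2
    have p2 : 0 < ‖G y b‖ := norm_pos_iff.2 h1
    have q1 : 0 < ‖F y a‖⁻¹ := inv_pos.2 p1
    have q2 : 0 < ‖G y b‖⁻¹ := inv_pos.2 p2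
    have q3 := norm_nonneg (F y)
    have q4 := norm_nonneg (G y)
    refine Set.mem_iUnion.2 ⟨R, by linarith, by linarith, ?_, ?_⟩
    · exact inv_le_of_inv_le₀ p1 (by linarith)
    · exact inv_le_of_inv_le₀ p2 (by linarith)
  obtain ⟨R, hR⟩ : ∃ R, μ (E R) ≠ 0 := by
    by_contra hcon
    push Not at hcon
    exact hpos (measure_mono_null hcover (measure_iUnion_null hcon))
  obtain ⟨t, τ, din, dout, m, θ, hτ, mdin, mdout, bdin, bdout, hint, hgood, hmeas⟩ :=
    H2 (E R) (hEm R) hR R a b hab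
  let dA : Datum μ :=
    { a := fun y => dg t (din y) (dout y)
      bdd := fun y => abs_dg_le (bdin y) (bdout y)
      meas := fun n => by
        unfold dg
        split_ifs
        · exact mdin
        · exact mdout
      k := 0
      ψ := τ
      mp := hτ }
  have hcA : dA.op * ww.T μ = ww.T μ * dA.op := ww.commute dA fun y n => by
    simpa [dA] using hint y n
  have hall : ∀ᵐ y ∂μ, ∀ j : ℕ, ⟪G y, W (dg t (din y) (dout y))
      (abs_dg_le (bdin y) (bdout y)) 0 ((Tw (ww.w (τ y)) (ww.bdd (τ y)) ^ j) (F (τ y)))⟫_ℂ = 0 := by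
    rw [ae_all_iff]
    intro j
    have h1 : (ww.T μ ^ j) F ∈ M := hinv _ (Commute.pow_self (ww.T μ) j) F hFM
    filter_upwards [ww.ae_inner_eq_zero M hinv _ G (hinv _ hcA _ h1) hGM,
      dA.op_coe ((ww.T μ ^ j) F), hτ.quasiMeasurePreserving.ae (ww.T_pow_coe j F)]
      with y e1 e2 e3
    rw [e2] at e1
    change ⟪G y, dA.fib y ((ww.T μ ^ j) F (τ y))⟫_ℂ = 0 at e1
    rw [e3] at e1
    exact e1
  obtain ⟨y, ⟨hyE, hτE, c1, c2, c3, c4⟩, hy⟩ :=
    ((frequently_ae_iff.2 hmeas).and_eventually hall).exists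
  obtain ⟨j, hj⟩ := hgood (ww.w (τ y)) (ww.bdd (τ y)) (F (τ y)) (G y) (din y) (dout y)
    (abs_dg_le (bdin y) (bdout y)) c1 c2 c3 c4 hτE.1 hyE.2.1 hτE.2.2.1 hyE.2.2.2
  exact hj (hy j)

lemma Weights.nonscalar [IsProbabilityMeasure μ] (ww : Weights Ω) (h : ∀ᵐ y ∂μ, ww.w y 0 ≠ 0)
    (c : ℂ) : ww.T μ ≠ c • (1 : Lp K 2 μ →L[ℂ] Lp K 2 μ) := by
  intro hc
  let e : K := lp.single 2 0 1
  let F : Lp K 2 μ := (memLp_const e).toLp _
  have hF : F =ᵐ[μ] fun _ => e := MemLp.coeFn_toLp _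
  have h1 : ww.T μ F = c • F := by rw [hc]; rfl
  have h2 := ww.T_coe F
  rw [h1] at h2
  have : ∀ᵐ y ∂μ, False := by
    filter_upwards [h2, hF, Lp.coeFn_smul c F, h] with y e1 e2 e3 hy
    rw [e3, Pi.smul_apply, e2] at e1
    have e4 : (c • e) 1 = Tw (ww.w y) (ww.bdd y) e 1 := by rw [e1]
    rw [Tw_apply] at e4
    have e5 : (0 : ℂ) = (ww.w y 0 : ℂ) := by simpa [e] using e4
    exact hy (by exact_mod_cast e5.symm)
  obtain ⟨_, h⟩ := this.exists
  exact h

end Vale.Agent.P131
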