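import Mathlib

/-! Weighted shifts on the sequence space over the integers and the fibre lemma. -/

open scoped ENNReal InnerProductSpace

namespace Vale.Agent.P131

/-- Square summable two sided complex sequences. -/
abbrev K : Type := lp (fun _ : ℤ => ℂ) 2

lemma two_toReal_pos : 0 < (2 : ℝ≥0∞).toReal := by norm_num

lemma summable_sq_shift (f : K) (k : ℤ) :
    Summable fun n : ℤ => ‖f (n + k)‖ ^ (2 : ℝ≥0∞).toReal :=
  (Equiv.addRight k).summable_iff.2 ((lp.memℓp f).summable two_toReal_pos)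

lemma tsum_sq_shift (f : K) (k : ℤ) :
    ∑' n : ℤ, ‖f (n + k)‖ ^ (2 : ℝ≥0∞).toReal = ‖f‖ ^ (2 : ℝ≥0∞).toReal := by
  rw [lp.norm_rpow_eq_tsum two_toReal_pos]
  exact (Equiv.addRight k).tsum_eq (fun n => ‖f n‖ ^ (2 : ℝ≥0∞).toReal)

lemma sq_le_of_le {x y c : ℝ} (hx : 0 ≤ x) (hy : 0 ≤ y) (hc : 0 ≤ c) (h : x ≤ c * y) :
    x ^ (2 : ℝ≥0∞).toReal ≤ c ^ (2 : ℝ≥0∞).toReal * y ^ (2 : ℝ≥0∞).toReal := by
  rw [← Real.mul_rpow hc hy]
  exact Real.rpow_le_rpow hx h two_toReal_pos.le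

lemma memlp_of_coord (g : ℤ → ℂ) (f : K) (c : ℝ) (hc : 0 ≤ c) (k : ℤ)
    (h : ∀ n, ‖g n‖ ≤ c * ‖f (n + k)‖) : Memℓp g 2 := by
  apply memℓp_gen
  refine Summable.of_nonneg_of_le (fun n => by positivity) (fun n => ?_)
    ((summable_sq_shift f k).mul_left (c ^ (2 : ℝ≥0∞).toReal))
  exact sq_le_of_le (norm_nonneg _) (norm_nonneg _) hc (h n)

lemma norm_le_of_coord (g f : K) (c : ℝ) (hc : 0 ≤ c) (k : ℤ)
    (h : ∀ n, ‖g n‖ ≤ c * ‖f (n + k)‖) : ‖g‖ ≤ c * ‖f‖ := by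
  apply lp.norm_le_of_tsum_le two_toReal_pos (by positivity)
  rw [Real.mul_rpow hc (norm_nonneg _), ← tsum_sq_shift f k, ← tsum_mul_left]
  refine Summable.tsum_le_tsum (fun n => ?_) ((lp.memℓp g).summable two_toReal_pos)
    ((summable_sq_shift f k).mul_left _)
  exact sq_le_of_le (norm_nonneg _) (norm_nonneg _) hc (h n)

lemma norm_mul_le_aux {a : ℝ} {c : ℝ} (ha : |a| ≤ c) (z : ℂ) : ‖(a : ℂ) * z‖ ≤ c * ‖z‖ := by
  rw [norm_mul, Complex.norm_real, Real.norm_eq_abs]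
  exact mul_le_mul_of_nonneg_right ha (norm_nonneg _)

/-- The weighted shift `f ↦ (n ↦ a n * f (n + k))` as a linear map. -/
noncomputable def Wlin (a : ℤ → ℝ) (ha : ∀ n, |a n| ≤ 1) (k : ℤ) : K →ₗ[ℂ] K where
  toFun f := ⟨fun n => (a n : ℂ) * f (n + k),
    memlp_of_coord _ f 1 zero_le_one k fun n => norm_mul_le_aux (ha n) _⟩
  map_add' f g := by
    apply lp.ext
    funext n
    simp only [lp.coeFn_add, Pi.add_apply, mul_add]
  map_smul' c f := by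
    apply lp.ext
    funext n
    simp
    ring

/-- The weighted shift `f ↦ (n ↦ a n * f (n + k))` as a bounded operator. -/
noncomputable def W (a : ℤ → ℝ) (ha : ∀ n, |a n| ≤ 1) (k : ℤ) : K →L[ℂ] K :=
  (Wlin a ha k).mkContinuous 1 fun f =>
    norm_le_of_coord _ f 1 zero_le_one k fun n => norm_mul_le_aux (ha n) _

@[simp] lemma W_apply (a : ℤ → ℝ) (ha : ∀ n, |a n| ≤ 1) (k : ℤ) (f : K) (n : ℤ) :
    W a ha k f n = (a n : ℂ) * f (n + k) := rfl

lemma norm_W_apply_le (a : ℤ → ℝ) (ha : ∀ n, |a n| ≤ 1) (k : ℤ) (f : K) :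
    ‖W a ha k f‖ ≤ ‖f‖ := by
  simpa using norm_le_of_coord (W a ha k f) f 1 zero_le_one k
    fun n => norm_mul_le_aux (ha n) _

/-- The product of the `k` weights preceding position `n`. -/
noncomputable def beta (w : ℤ → ℝ) (k : ℕ) (n : ℤ) : ℝ := ∏ i ∈ Finset.range k, w (n - 1 - i)

/-- The forward weighted shift sending the basis vector at `n` to `w n` times the one at
`n + 1`. -/
noncomputable def Tw (w : ℤ → ℝ) (hw : ∀ n, |w n| ≤ 1) : K →L[ℂ] K :=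
  W (fun n => w (n - 1)) (fun n => hw (n - 1)) (-1)

lemma Tw_apply (w : ℤ → ℝ) (hw : ∀ n, |w n| ≤ 1) (f : K) (n : ℤ) :
    Tw w hw f n = (w (n - 1) : ℂ) * f (n - 1) := by
  simp [Tw, sub_eq_add_neg]

lemma Tw_pow_apply (w : ℤ → ℝ) (hw : ∀ n, |w n| ≤ 1) (k : ℕ) (f : K) (n : ℤ) :
    (Tw w hw ^ k) f n = (beta w k n : ℂ) * f (n - k) := by
  induction k generalizing f with
  | zero => simp [beta]
  | succ k ih =>
    rw [pow_succ, mul_apply_eq_comp, ih, Tw_apply]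
    simp only [beta, Finset.prod_range_succ]
    push_cast
    rw [show n - (k : ℤ) - 1 = n - 1 - k by ring, show n - ((k : ℤ) + 1) = n - 1 - k by ring]
    ring

lemma abs_beta_le_one (w : ℤ → ℝ) (hw : ∀ n, |w n| ≤ 1) (k : ℕ) (n : ℤ) : |beta w k n| ≤ 1 := by
  rw [beta, Finset.abs_prod]
  exact Finset.prod_le_one (fun _ _ => abs_nonneg _) fun _ _ => hw _

lemma abs_beta_le (w : ℤ → ℝ) (hw : ∀ n, |w n| ≤ 1) (k : ℕ) (n s : ℤ) (h1 : n - k ≤ s)
    (h2 : s < n) : |beta w k n| ≤ |w s| := by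
  rw [beta, Finset.abs_prod]
  have hmem : (n - 1 - s).toNat ∈ Finset.range k := by
    rw [Finset.mem_range]; omega
  rw [← Finset.mul_prod_erase _ _ hmem]
  have : n - 1 - ((n - 1 - s).toNat : ℤ) = s := by omega
  rw [this]
  exact mul_le_of_le_one_right (abs_nonneg _)
    (Finset.prod_le_one (fun _ _ => abs_nonneg _) fun _ _ => hw _)

lemma norm_Tw_pow_apply_le (w : ℤ → ℝ) (hw : ∀ n, |w n| ≤ 1) (k : ℕ) (c : ℝ) (hc : 0 ≤ c)
    (h : ∀ n, |beta w k n| ≤ c) (f : K) : ‖(Tw w hw ^ k) f‖ ≤ c * ‖f‖ := by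
  refine norm_le_of_coord _ f c hc (-k) fun n => ?_
  rw [Tw_pow_apply, ← sub_eq_add_neg]
  exact norm_mul_le_aux (h n) _

/-- The truncated pairing on the block `(-t, t]`. -/
noncomputable def pairing (t : ℕ) (w : ℤ → ℝ) (f g : ℤ → ℂ) (k : ℕ) : ℂ :=
  ∑ n ∈ Finset.Ioc (-(t : ℤ)) t,
    if -(t : ℤ) < n - k then (starRingEnd ℂ) (g n) * ((beta w k n : ℂ) * f (n - k)) else 0

lemma continuous_pairing (t k : ℕ) :
    Continuous fun p : (ℤ → ℝ) × (ℤ → ℂ) × (ℤ → ℂ) => pairing t p.1 p.2.1 p.2.2 k := by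
  unfold pairing beta
  refine continuous_finsetSum _ fun n _ => ?_
  split_ifs
  · fun_prop
  · fun_prop

lemma exists_pairing_ne_zero (t : ℕ) (w : ℤ → ℝ) (f g : ℤ → ℂ) (a b : ℤ)
    (ha : -(t : ℤ) < a) (hb : b ≤ t) (hab : a ≤ b)
    (hw : ∀ n, -(t : ℤ) < n → n < t → w n ≠ 0) (hf : f a ≠ 0) (hg : g b ≠ 0) :
    ∃ k : ℕ, k < 2 * t ∧ pairing t w f g k ≠ 0 := by
  classical
  set A := (Finset.Ioc (-(t : ℤ)) t).filter fun n => f n ≠ 0 with hA
  set B := (Finset.Ioc (-(t : ℤ)) t).filter fun n => g n ≠ 0 with hB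
  have haA : a ∈ A := by
    simp only [hA, Finset.mem_filter, Finset.mem_Ioc]; exact ⟨⟨ha, by omega⟩, hf⟩
  have hbB : b ∈ B := by
    simp only [hB, Finset.mem_filter, Finset.mem_Ioc]; exact ⟨⟨by omega, hb⟩, hg⟩
  set a0 := A.min' ⟨a, haA⟩
  set b0 := B.max' ⟨b, hbB⟩
  have ha0 : a0 ∈ A := A.min'_mem _
  have hb0 : b0 ∈ B := B.max'_mem _
  have ha0a : a0 ≤ a := A.min'_le a haA
  have hbb0 : b ≤ b0 := B.le_max' b hbB
  simp only [hA, hB, Finset.mem_filter, Finset.mem_Ioc] at ha0 hb0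
  refine ⟨(b0 - a0).toNat, by omega, ?_⟩
  have hk : (((b0 - a0).toNat : ℕ) : ℤ) = b0 - a0 := by omega
  unfold pairing
  rw [Finset.sum_eq_single b0]
  · rw [hk, show b0 - (b0 - a0) = a0 by ring, if_pos ha0.1.1]
    refine mul_ne_zero (by simpa using hb0.2) (mul_ne_zero ?_ ha0.2)
    rw [Complex.ofReal_ne_zero, beta, Finset.prod_ne_zero_iff]
    intro i hi
    rw [Finset.mem_range] at hi
    exact hw _ (by omega) (by omega)
  · intro n hn hnb
    rw [Finset.mem_Ioc] at hn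
    rw [hk]
    split_ifs with h
    · by_cases hgn : g n = 0
      · simp [hgn]
      · have hnB : n ∈ B := by
          simp only [hB, Finset.mem_filter, Finset.mem_Ioc]; exact ⟨hn, hgn⟩
        have hle : n ≤ b0 := B.le_max' n hnB
        by_cases hfn : f (n - (b0 - a0)) = 0
        · simp [hfn]
        · have hnA : n - (b0 - a0) ∈ A := by
            simp only [hA, Finset.mem_filter, Finset.mem_Ioc]; exact ⟨⟨h, by omega⟩, hfn⟩
          have := A.min'_le _ hnA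
          omega
    · rfl
  · intro h
    exact absurd (Finset.mem_Ioc.2 hb0.1) h

lemma exists_rho (t : ℕ) (m R : ℝ) (hm : 0 < m) (hR : 0 < R) (a b : ℤ)
    (ha : -(t : ℤ) < a) (hb : b ≤ t) (hab : a ≤ b) :
    ∃ ρ : ℝ, 0 < ρ ∧ ∀ (w : ℤ → ℝ) (f g : ℤ → ℂ), (∀ n, |w n| ≤ 1) →
      (∀ n, -(t : ℤ) < n → n < t → m ≤ w n) → (∀ n, ‖f n‖ ≤ R) → (∀ n, ‖g n‖ ≤ R) →
      R⁻¹ ≤ ‖f a‖ → R⁻¹ ≤ ‖g b‖ → ρ ≤ ∑ k ∈ Finset.range (2 * t), ‖pairing t w f g k‖ := by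
  let C : Set ((ℤ → ℝ) × (ℤ → ℂ) × (ℤ → ℂ)) :=
    (Set.univ.pi fun _ => Metric.closedBall (0 : ℝ) 1) ×ˢ
      (Set.univ.pi fun _ => Metric.closedBall (0 : ℂ) R) ×ˢ
        (Set.univ.pi fun _ => Metric.closedBall (0 : ℂ) R)
  have hC : IsCompact C :=
    (isCompact_univ_pi fun _ => isCompact_closedBall _ _).prod
      ((isCompact_univ_pi fun _ => isCompact_closedBall _ _).prod
        (isCompact_univ_pi fun _ => isCompact_closedBall _ _))
  let D : Set ((ℤ → ℝ) × (ℤ → ℂ) × (ℤ → ℂ)) :=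
    {p | (∀ n, -(t : ℤ) < n → n < t → m ≤ p.1 n) ∧ R⁻¹ ≤ ‖p.2.1 a‖ ∧ R⁻¹ ≤ ‖p.2.2 b‖}
  have hD : IsClosed D := by
    refine IsClosed.inter ?_ (IsClosed.inter ?_ ?_)
    · change IsClosed {p : (ℤ → ℝ) × (ℤ → ℂ) × (ℤ → ℂ) |
        ∀ n, -(t : ℤ) < n → n < t → m ≤ p.1 n}
      simp only [Set.ofPred_forall]
      refine isClosed_iInter fun n => isClosed_iInter fun _ => isClosed_iInter fun _ => ?_
      exact isClosed_le continuous_const (by fun_prop)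
    · change IsClosed {p : (ℤ → ℝ) × (ℤ → ℂ) × (ℤ → ℂ) | R⁻¹ ≤ ‖p.2.1 a‖}
      exact isClosed_le continuous_const (by fun_prop)
    · change IsClosed {p : (ℤ → ℝ) × (ℤ → ℂ) × (ℤ → ℂ) | R⁻¹ ≤ ‖p.2.2 b‖}
      exact isClosed_le continuous_const (by fun_prop)
  have hcont : Continuous fun p : (ℤ → ℝ) × (ℤ → ℂ) × (ℤ → ℂ) =>
      ∑ k ∈ Finset.range (2 * t), ‖pairing t p.1 p.2.1 p.2.2 k‖ :=
    continuous_finsetSum _ fun k _ => (continuous_pairing t k).norm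
  have hpos : ∀ p ∈ C ∩ D,
      (0 : ℝ) < ∑ k ∈ Finset.range (2 * t), ‖pairing t p.1 p.2.1 p.2.2 k‖ := by
    rintro ⟨w, f, g⟩ ⟨-, h1, h2, h3⟩
    have hRi : 0 < R⁻¹ := inv_pos.2 hR
    obtain ⟨k, hk, hne⟩ := exists_pairing_ne_zero t w f g a b ha hb hab
      (fun n h h' => (lt_of_lt_of_le hm (h1 n h h')).ne')
      (norm_pos_iff.1 (lt_of_lt_of_le hRi h2)) (norm_pos_iff.1 (lt_of_lt_of_le hRi h3))
    exact Finset.sum_pos' (fun _ _ => norm_nonneg _)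
      ⟨k, Finset.mem_range.2 hk, norm_pos_iff.2 hne⟩
  obtain ⟨ρ, hρ, h⟩ := (hC.inter_right hD).exists_forall_le' hcont.continuousOn hpos
  refine ⟨ρ, hρ, fun w f g h1 h2 h3 h4 h5 h6 => h (w, f, g) ⟨⟨?_, ?_, ?_⟩, h2, h5, h6⟩⟩
  · intro n _; simpa using h1 n
  · intro n _; simpa using h3 n
  · intro n _; simpa using h4 n

/-- The two valued diagonal: `din` on the block `(-t, t]` and `dout` off it. -/
noncomputable def dg (t : ℕ) (din dout : ℝ) (n : ℤ) : ℝ :=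
  if -(t : ℤ) < n ∧ n ≤ t then din else dout

lemma abs_dg_le {t : ℕ} {din dout : ℝ} (h1 : |din| ≤ 1) (h2 : |dout| ≤ 1) (n : ℤ) :
    |dg t din dout n| ≤ 1 := by
  unfold dg; split_ifs <;> assumption

lemma inner_dg (t : ℕ) (din dout : ℝ) (hd : ∀ n, |dg t din dout n| ≤ 1) (g h : K) :
    ⟪g, W (dg t din dout) hd 0 h⟫_ℂ = (dout : ℂ) * ⟪g, h⟫_ℂ +
      ((din : ℂ) - dout) * ∑ n ∈ Finset.Ioc (-(t : ℤ)) t, (starRingEnd ℂ) (g n) * h n := by
  have : W (dg t din dout) hd 0 h = (dout : ℂ) • h +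
      ((din : ℂ) - dout) • ∑ n ∈ Finset.Ioc (-(t : ℤ)) t, lp.single 2 n (h n) := by
    apply lp.ext
    funext n
    simp only [W_apply, add_zero, lp.coeFn_add, lp.coeFn_smul, Pi.add_apply, Pi.smul_apply,
      lp.coeFn_sum, Finset.sum_apply, lp.coeFn_single, smul_eq_mul, Finset.sum_pi_single,
      Finset.mem_Ioc, dg]
    split_ifs <;> ring
  rw [this, inner_add_right, inner_smul_right, inner_smul_right, inner_sum]
  congr 2
  refine Finset.sum_congr rfl fun n _ => ?_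
  rw [lp.inner_single_right]
  simp [mul_comm]

lemma norm_pairing_le (t : ℕ) (m R θ : ℝ) (hm : 0 < m) (hR : 0 < R) (hθ : 0 ≤ θ)
    (hθm : θ ≤ m / 2)
    (w : ℤ → ℝ) (hw : ∀ n, |w n| ≤ 1) (f g : K) (din dout : ℝ)
    (hd : ∀ n, |dg t din dout n| ≤ 1) (hs : |w (-(t : ℤ))| ≤ θ) (hin : m ≤ din)
    (hout : |dout| ≤ θ) (hf : ‖f‖ ≤ R) (hg : ‖g‖ ≤ R) (k : ℕ)
    (h0 : ⟪g, W (dg t din dout) hd 0 ((Tw w hw ^ k) f)⟫_ℂ = 0) :
    ‖pairing t w f g k‖ ≤ θ * (R * R * (2 / m + 2 * t)) := by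
  set h := (Tw w hw ^ k) f with hh
  set S := ∑ n ∈ Finset.Ioc (-(t : ℤ)) t, (starRingEnd ℂ) (g n) * h n with hS
  have hhn : ‖h‖ ≤ R := by
    have := norm_Tw_pow_apply_le w hw k 1 zero_le_one (abs_beta_le_one w hw k) f
    linarith
  have hfn : ∀ n, ‖f n‖ ≤ R := fun n => (lp.norm_apply_le_norm (by norm_num) f n).trans hf
  have hgn : ∀ n, ‖g n‖ ≤ R := fun n => (lp.norm_apply_le_norm (by norm_num) g n).trans hg
  rw [inner_dg] at h0
  have h1 : ‖S‖ ≤ θ * (R * R * (2 / m)) := by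
    have e : ((din : ℂ) - dout) * S = -((dout : ℂ) * ⟪g, h⟫_ℂ) := by linear_combination h0
    have e2 : ‖((din : ℂ) - dout) * S‖ ≤ θ * (R * R) := by
      rw [e, norm_neg]
      refine (norm_mul_le_aux hout _).trans (mul_le_mul_of_nonneg_left ?_ hθ)
      exact (norm_inner_le_norm g h).trans (mul_le_mul hg hhn (norm_nonneg _) hR.le)
    have e3 : m / 2 ≤ ‖(din : ℂ) - dout‖ := by
      rw [← Complex.ofReal_sub, Complex.norm_real, Real.norm_eq_abs]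
      have := le_abs_self dout
      have := le_abs_self (din - dout)
      linarith
    rw [norm_mul] at e2
    have e4 : m / 2 * ‖S‖ ≤ θ * (R * R) :=
      (mul_le_mul_of_nonneg_right e3 (norm_nonneg _)).trans e2
    have e5 : ‖S‖ = (m / 2 * ‖S‖) * (2 / m) := by field_simp
    rw [e5, ← mul_assoc θ]
    exact mul_le_mul_of_nonneg_right e4 (by positivity)
  have h2 : ‖pairing t w f g k - S‖ ≤ θ * (R * R * (2 * t)) := by
    rw [pairing, hS, ← Finset.sum_sub_distrib]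
    refine (norm_sum_le_of_le _ (n := fun _ => θ * (R * R)) fun n hn => ?_).trans ?_
    · rw [Finset.mem_Ioc] at hn
      rw [hh, Tw_pow_apply]
      split_ifs with hc
      · simp only [sub_self, norm_zero]; positivity
      · rw [zero_sub, norm_neg, norm_mul, RCLike.norm_conj]
        have hb : |beta w k n| ≤ θ := (abs_beta_le w hw k n (-(t : ℤ)) (by omega) hn.1).trans hs
        have := (norm_mul_le_aux hb (f (n - k))).trans (mul_le_mul_of_nonneg_left (hfn _) hθ)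
        calc ‖g n‖ * ‖(beta w k n : ℂ) * f (n - k)‖ ≤ R * (θ * R) :=
              mul_le_mul (hgn n) this (norm_nonneg _) hR.le
          _ = θ * (R * R) := by ring
    · rw [Finset.sum_const, Int.card_Ioc, nsmul_eq_mul]
      have : ((((t : ℤ) - -(t : ℤ)).toNat : ℕ) : ℝ) = 2 * t := by
        have : ((t : ℤ) - -(t : ℤ)).toNat = 2 * t := by omega
        rw [this]; push_cast; ring
      rw [this]
      exact le_of_eq (by ring)
  calc ‖pairing t w f g k‖ = ‖S + (pairing t w f g k - S)‖ := by congr 1; ring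
    _ ≤ ‖S‖ + ‖pairing t w f g k - S‖ := norm_add_le _ _
    _ ≤ θ * (R * R * (2 / m)) + θ * (R * R * (2 * t)) := add_le_add h1 h2
    _ = _ := by ring

/-- The property of a threshold `θ` used in the fibre lemma. -/
def Good (t : ℕ) (m R θ : ℝ) (a b : ℤ) : Prop :=
  ∀ (w : ℤ → ℝ) (hw : ∀ n, |w n| ≤ 1) (f g : K) (din dout : ℝ)
    (hd : ∀ n, |dg t din dout n| ≤ 1), (∀ n, -(t : ℤ) < n → n < t → m ≤ w n) →
    |w (-(t : ℤ))| ≤ θ → m ≤ din → |dout| ≤ θ → ‖f‖ ≤ R → ‖g‖ ≤ R → R⁻¹ ≤ ‖f a‖ →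
    R⁻¹ ≤ ‖g b‖ → ∃ k : ℕ, ⟪g, W (dg t din dout) hd 0 ((Tw w hw ^ k) f)⟫_ℂ ≠ 0

lemma eventually_good (t : ℕ) (m R : ℝ) (hm : 0 < m) (hR : 0 < R) (a b : ℤ)
    (ha : -(t : ℤ) < a) (hb : b ≤ t) (hab : a ≤ b) :
    ∀ᶠ θ in nhdsWithin (0 : ℝ) (Set.Ioi 0), Good t m R θ a b := by
  obtain ⟨ρ, hρ, h⟩ := exists_rho t m R hm hR a b ha hb hab
  set c : ℝ := 2 * t * (R * R * (2 / m + 2 * t)) + 1 with hc
  have hc0 : 0 < c := by positivity
  have hmin : 0 < min (m / 2) (ρ / c) := lt_min (by positivity) (by positivity)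
  filter_upwards [Ioo_mem_nhdsGT hmin] with θ hθ
  intro w hw f g din dout hd h1 h2 h3 h4 h5 h6 h7 h8
  by_contra hcon
  push Not at hcon
  have hθ0 : 0 < θ := hθ.1
  have hθm : θ ≤ m / 2 := (hθ.2.trans_le (min_le_left _ _)).le
  have hθc : θ * c < ρ := (lt_div_iff₀ hc0).1 (hθ.2.trans_le (min_le_right _ _))
  have key := h w f g hw h1 (fun n => (lp.norm_apply_le_norm (by norm_num) f n).trans h5)
    (fun n => (lp.norm_apply_le_norm (by norm_num) g n).trans h6) h7 h8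
  have key2 : ∑ k ∈ Finset.range (2 * t), ‖pairing t w f g k‖ ≤
      ∑ _k ∈ Finset.range (2 * t), θ * (R * R * (2 / m + 2 * t)) :=
    Finset.sum_le_sum fun k _ =>
      norm_pairing_le t m R θ hm hR hθ0.le hθm w hw f g din dout hd h2 h3 h4 h5 h6 k (hcon k)
  rw [Finset.sum_const, Finset.card_range, nsmul_eq_mul] at key2
  push_cast at key2
  have : θ * c = 2 * t * (θ * (R * R * (2 / m + 2 * t))) + θ := by rw [hc]; ring
  linarith

/-- The fibre lemma: one threshold serves all blocks of half length at most `N`. -/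
lemma fibre (N : ℕ) (m R : ℝ) (hm : 0 < m) (hR : 0 < R) :
    ∃ θ : ℝ, 0 < θ ∧ ∀ t : ℕ, t ≤ N → ∀ a b : ℤ, -(t : ℤ) < a → b ≤ t → a ≤ b →
      Good t m R θ a b := by
  have : ∀ᶠ θ in nhdsWithin (0 : ℝ) (Set.Ioi 0), ∀ t ∈ Finset.range (N + 1),
      ∀ a ∈ Finset.Ioc (-(t : ℤ)) t, ∀ b ∈ Finset.Icc a t, Good t m R θ a b := by
    rw [Filter.eventually_all_finset]
    intro t _
    rw [Filter.eventually_all_finset]
    intro a ha
    rw [Filter.eventually_all_finset]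
    intro b hb
    rw [Finset.mem_Ioc] at ha
    rw [Finset.mem_Icc] at hb
    exact eventually_good t m R hm hR a b ha.1 hb.2 hb.1
  obtain ⟨θ, hθ, hθ0⟩ := (this.and self_mem_nhdsWithin).exists
  refine ⟨θ, hθ0, fun t ht a b ha hb hab => hθ t (Finset.mem_range.2 (by omega)) a
    (Finset.mem_Ioc.2 ⟨ha, by omega⟩) b (Finset.mem_Icc.2 ⟨hab, hb⟩)⟩

end Vale.Agent.P131
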