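import Vale.Agent.P131.Construction

/-! Transfer of the counterexample to every separable infinite dimensional Hilbert space. -/

open scoped ENNReal Topology InnerProductSpace
open MeasureTheory

namespace Vale.Agent.P131

lemma exists_equiv_nat (H : Type*) [NormedAddCommGroup H] [InnerProductSpace ℂ H]
    [CompleteSpace H] [TopologicalSpace.SeparableSpace H] (hH : ¬ FiniteDimensional ℂ H) :
    Nonempty (H ≃ₗᵢ[ℂ] lp (fun _ : ℕ => ℂ) 2) := by
  classical
  obtain ⟨w, b, -⟩ := exists_hilbertBasis ℂ H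
  have hon := b.orthonormal
  have hcount : Countable w := by
    refine Pairwise.countable_of_isOpen_disjoint (s := fun i : w => Metric.ball (b i) (1 / 2))
      (fun i j hij => ?_) (fun _ => Metric.isOpen_ball)
      (fun i => ⟨b i, Metric.mem_ball_self (by norm_num)⟩)
    refine Metric.ball_disjoint_ball ?_
    rw [dist_eq_norm]
    have h1 : ‖b i - b j‖ ^ 2 = 2 := by
      rw [@norm_sub_sq ℂ, hon.1 i, hon.1 j, hon.2 hij]
      norm_num
    nlinarith [norm_nonneg (b i - b j)]
  have hinf : Infinite w := by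
    by_contra hfin
    rw [not_infinite_iff_finite] at hfin
    have := Fintype.ofFinite w
    exact hH (Module.Finite.of_basis b.toOrthonormalBasis.toBasis)
  obtain ⟨e⟩ : Nonempty (ℕ ≃ w) := nonempty_equiv_of_countable
  have hon' : Orthonormal ℂ (b ∘ e) := hon.comp e e.injective
  have hsp : ⊤ ≤ (Submodule.span ℂ (Set.range (b ∘ e))).topologicalClosure := by
    rw [e.surjective.range_comp, b.dense_span]
  exact ⟨(HilbertBasis.mk hon' hsp).repr⟩

instance : TopologicalSpace.SeparableSpace K := by
  let b : HilbertBasis ℤ ℂ K := default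
  have h1 : TopologicalSpace.IsSeparable
      ((Submodule.span ℂ (Set.range b)).topologicalClosure : Set K) :=
    ((Set.countable_range b).isSeparable.span).closure
  rw [b.dense_span] at h1
  exact TopologicalSpace.isSeparable_univ_iff.1 h1

instance : TopologicalSpace.SeparableSpace (Lp K 2 mu) := by
  have : Fact ((2 : ℝ≥0∞) ≠ ∞) := ⟨by norm_num⟩
  infer_instance

lemma wts_nonscalar (c : ℂ) : wts.T mu ≠ c • (1 : Lp K 2 mu →L[ℂ] Lp K 2 mu) :=
  wts.nonscalar ae_wts_ne c

lemma model_nontrivial : Nontrivial (Lp K 2 mu) := by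
  by_contra h
  rw [not_nontrivial_iff_subsingleton] at h
  exact wts_nonscalar 0 (ContinuousLinearMap.ext fun _ => Subsingleton.elim _ _)

lemma model_infinite : ¬ FiniteDimensional ℂ (Lp K 2 mu) := by
  intro hfin
  have := model_nontrivial
  obtain ⟨c, hc⟩ := Module.End.exists_eigenvalue (wts.T mu : Module.End ℂ (Lp K 2 mu))
  rcases wts_transitive (Module.End.eigenspace (wts.T mu : Module.End ℂ (Lp K 2 mu)) c)
    (Submodule.closed_of_finiteDimensional _) (fun A hA x hx => by
      rw [Module.End.mem_eigenspace_iff] at hx ⊢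
      have h1 : A (wts.T mu x) = wts.T mu (A x) := congrArg (fun B => B x) hA
      have h2 : wts.T mu x = c • x := hx
      change wts.T mu (A x) = c • A x
      rw [← h1, h2, map_smul]) with h | h
  · exact hc h
  · refine wts_nonscalar c (ContinuousLinearMap.ext fun x => ?_)
    have hx : x ∈ Module.End.eigenspace (wts.T mu : Module.End ℂ (Lp K 2 mu)) c := by
      rw [h]; trivial
    exact Module.End.mem_eigenspace_iff.1 hx

lemma wts_spectrum : spectrum ℂ (wts.T mu) = {0} := by
  have := model_nontrivial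
  refine (Set.Nonempty.subset_singleton_iff (spectrum.nonempty _)).1 fun z hz => ?_
  have h1 : ∀ j : ℕ, ‖z‖ ≤ (1 / 2) ^ j := fun j => by
    have h2 := spectrum.norm_le_norm_of_mem (spectrum.pow_mem_pow (wts.T mu) (3 ^ j + 1) hz)
    rw [norm_pow] at h2
    exact (pow_le_pow_iff_left₀ (norm_nonneg _) (by positivity) (Nat.succ_ne_zero _)).1
      (h2.trans (norm_pow_le j))
  have h3 : ‖z‖ ≤ 0 := ge_of_tendsto'
    (tendsto_pow_atTop_nhds_zero_of_lt_one (r := (1 / 2 : ℝ)) (by norm_num) (by norm_num)) h1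
  exact norm_le_zero_iff.1 h3

theorem exists_counterexample (H : Type*) [NormedAddCommGroup H] [InnerProductSpace ℂ H]
    [CompleteSpace H] [TopologicalSpace.SeparableSpace H] (hH : ¬ FiniteDimensional ℂ H) :
    ∃ T : H →L[ℂ] H, (∀ c : ℂ, T ≠ c • (1 : H →L[ℂ] H)) ∧ spectrum ℂ T = {0} ∧
      ∀ M : Submodule ℂ H, IsClosed (M : Set H) →
        (∀ A : H →L[ℂ] H, A * T = T * A → ∀ x ∈ M, A x ∈ M) → M = ⊥ ∨ M = ⊤ := by
  obtain ⟨e1⟩ := exists_equiv_nat H hH
  obtain ⟨e2⟩ := exists_equiv_nat (Lp K 2 mu) model_infinite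
  let e : Lp K 2 mu ≃L[ℂ] H := (e2.trans e1.symm).toContinuousLinearEquiv
  let φ := e.conjContinuousAlgEquiv
  refine ⟨φ (wts.T mu), fun c hc => wts_nonscalar c (φ.injective ?_), ?_, fun M hM hinv => ?_⟩
  · change φ (wts.T mu) = φ (c • 1)
    rw [hc, map_smul, map_one]
  · rw [AlgEquiv.spectrum_eq φ, wts_spectrum]
  · have h := wts_transitive (M.comap (e : Lp K 2 mu →ₗ[ℂ] H)) (hM.preimage e.continuous)
      (fun A hA x hx => by
        have h1 : φ A * φ (wts.T mu) = φ (wts.T mu) * φ A := by rw [← map_mul, hA, map_mul]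
        have h2 := hinv _ h1 (e x) hx
        simpa [φ] using h2)
    rcases h with h | h
    · left
      rw [eq_bot_iff]
      intro x hx
      have : e.symm x ∈ M.comap (e : Lp K 2 mu →ₗ[ℂ] H) := by simpa using hx
      rw [h] at this
      simpa using this
    · right
      rw [eq_top_iff]
      intro x _
      have : e.symm x ∈ M.comap (e : Lp K 2 mu →ₗ[ℂ] H) := by rw [h]; trivial
      simpa using this

end Vale.Agent.P131
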